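import Vale.Agent.P178.H911.Eval
import Vale.Agent.P178.H815.RingFacts

/-!
The trace cochain does not vanish on the symbol of helper815's units.
-/

namespace Vale.Agent.P178.H911

open H873 H815 Matrix TrivSqZeroExt

variable (p : ℕ) [Fact p.Prime] (hp : p ≠ 2)

/-- the residue map `A → 𝔽_p` -/
noncomputable def phiA : AA p →+* ZMod p :=
  (TrivSqZeroExt.fstHom (ZMod p) (ZMod p) (Fin 3 → ZMod p)).toRingHom.comp (piA p hp)

/-- the three derivations `A → 𝔽_p` -/
noncomputable def DA (l : Fin 3) : AA p →+ ZMod p where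
  toFun a := (piA p hp a).snd l
  map_zero' := by simp
  map_add' a b := by simp

theorem phiA_apply (a : AA p) : phiA p hp a = (piA p hp a).fst := rfl
theorem DA_apply (l : Fin 3) (a : AA p) : DA p hp l a = (piA p hp a).snd l := rfl

theorem DA_mul (l : Fin 3) (a b : AA p) :
    DA p hp l (a * b) = phiA p hp a * DA p hp l b + phiA p hp b * DA p hp l a := by
  simp only [DA_apply, phiA_apply, map_mul, TrivSqZeroExt.snd_mul, Pi.add_apply, Pi.smul_apply,
    smul_eq_mul, MulOpposite.smul_eq_mul_unop, MulOpposite.unop_op]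
  ring

theorem snd_eps (i l : Fin 3) : (eps p i).snd l = if l = i then 1 else 0 := by
  simp [eps, Pi.single_apply]

theorem dlg_u1 (l : Fin 3) : dlg (phiA p hp) (DA p hp) l (u1 p) =
    ![-1, 0, -1] l := by
  have h1 : phiA p hp (u1 p) = -1 := by
    rw [phiA_apply, piA_u1]; simp [fst_eps]
  have h2 : phiA p hp ((u1 p)⁻¹ : (AA p)ˣ) = -1 := by
    have := congrArg (phiA p hp) (u1 p).mul_inv
    rw [map_mul, h1, map_one] at this
    linear_combination -this
  rw [dlg, h2, DA_apply, piA_u1]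
  simp only [TrivSqZeroExt.snd_add, TrivSqZeroExt.snd_neg, TrivSqZeroExt.snd_one, neg_zero,
    zero_add, Pi.add_apply, snd_eps]
  fin_cases l <;> simp

theorem dlg_u2 (l : Fin 3) : dlg (phiA p hp) (DA p hp) l (u2 p) =
    ![0, 0, -1] l := by
  have h1 : phiA p hp (u2 p) = 1 := by
    rw [phiA_apply, piA_u2]; simp [fst_eps]
  have h2 : phiA p hp ((u2 p)⁻¹ : (AA p)ˣ) = 1 := by
    have := congrArg (phiA p hp) (u2 p).mul_inv
    rw [map_mul, h1, map_one] at this
    linear_combination this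
  rw [dlg, h2, DA_apply, piA_u2]
  simp only [TrivSqZeroExt.snd_sub, TrivSqZeroExt.snd_one, zero_sub, Pi.neg_apply, snd_eps]
  fin_cases l <;> simp

theorem dlg_u3 (l : Fin 3) : dlg (phiA p hp) (DA p hp) l (u3 p) =
    ![0, 1, 0] l := by
  have h1 : phiA p hp (u3 p) = -1 := by
    rw [phiA_apply, piA_u3]; simp [fst_eps]
  have h2 : phiA p hp ((u3 p)⁻¹ : (AA p)ˣ) = -1 := by
    have := congrArg (phiA p hp) (u3 p).mul_inv
    rw [map_mul, h1, map_one] at this
    linear_combination -this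
  rw [dlg, h2, DA_apply, piA_u3]
  simp only [TrivSqZeroExt.snd_neg, TrivSqZeroExt.snd_add, TrivSqZeroExt.snd_one, zero_add,
    Pi.neg_apply, snd_eps]
  fin_cases l <;> simp

theorem det_dlg : Matrix.det !![dlg (phiA p hp) (DA p hp) 0 (u1 p),
      dlg (phiA p hp) (DA p hp) 1 (u1 p), dlg (phiA p hp) (DA p hp) 2 (u1 p);
      dlg (phiA p hp) (DA p hp) 0 (u2 p), dlg (phiA p hp) (DA p hp) 1 (u2 p),
      dlg (phiA p hp) (DA p hp) 2 (u2 p);
      dlg (phiA p hp) (DA p hp) 0 (u3 p), dlg (phiA p hp) (DA p hp) 1 (u3 p),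
      dlg (phiA p hp) (DA p hp) 2 (u3 p)] = (-1 : ZMod p) := by
  simp only [dlg_u1, dlg_u2, dlg_u3]
  rw [Matrix.det_fin_three]
  simp

/-- the value on helper815's units is `-ε` -/
theorem trF_symb_units (ε : ZMod p) :
    ev3 (fun g : St I (AA p) × St I (AA p) × St I (AA p) =>
      ε * trF (phiA p hp) (DA p hp) (St.toGL g.1) (St.toGL g.2.1) (St.toGL g.2.2))
      (symb (u1 p) (u2 p) (u3 p)) = -ε := by
  rw [trF_symb (phiA p hp) (DA p hp) (DA_mul p hp), det_dlg, mul_neg_one]

end Vale.Agent.P178.H911
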