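import Vale.Agent.P178.H911.Symb
import Vale.Agent.P178.H815.RingFacts

/-!
The symbol class of helper815's units dies over the fraction field.
-/

namespace Vale.Agent.P178.H911

open H873 H815

variable (p : ℕ) [Fact p.Prime]

/-- over any field `K` into which `AA p` injects, the symbol chain bounds -/
theorem exists_bar4_units (hp : p ≠ 2) {K : Type*} [Field K] (ψ : AA p →+* K)
    (hψ : Function.Injective ψ) :
    ∃ w, bar4 (St I K) w = symb (Units.map (ψ : AA p →* K) (u1 p))
      (Units.map (ψ : AA p →* K) (u2 p)) (Units.map (ψ : AA p →* K) (u3 p)) := by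
  have hx : ψ (xA p) ≠ 0 := (map_ne_zero_iff ψ hψ).2 (xA_ne_zero p hp)
  have hy : ψ (1 - jA p) ≠ 0 := (map_ne_zero_iff ψ hψ).2 (one_sub_j_ne_zero p hp)
  have hp1 : p - 1 + 1 = p := Nat.sub_add_cancel (Fact.out : p.Prime).one_lt.le
  refine exists_bar4_symb (n := p - 1) _ _ _ (Units.mk0 _ hx) (Units.mk0 _ hy)
    (Units.map (ψ : AA p →* K) (jU p)) (Units.map (ψ : AA p →* K) (tU p))
    (Units.map (ψ : AA p →* K) (eU p)) ?_ ?_ ?_ ?_ ?_ ?_
  · simp only [Units.val_mk0, Units.coe_map, MonoidHom.coe_coe, jU_val, map_sub, map_one]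
    ring
  · have := congrArg ψ (rel_one p)
    simpa using this
  · rw [← map_mul, ← map_pow]
    congr 1
    rw [u2, inv_mul_cancel_right]
  · have := congrArg ψ (rel_two p)
    rw [hp1]
    simp only [map_add, map_mul, map_pow, map_one] at this
    simp only [Units.val_mk0, Units.val_mul, Units.val_pow_eq_pow_val, ← map_inv, Units.coe_map,
      MonoidHom.coe_coe, jU_val]
    exact this
  · have := congrArg ψ (tU_val p)
    simp only [map_add, map_mul, map_one] at this
    simpa using this
  · ext
    simp [u3]

/-- over the fraction field the symbol chain bounds -/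
theorem exists_bar4_frac (hp : p ≠ 2) :
    ∃ w, bar4 (St I (FractionRing (AA p))) w =
      mapC3 (St.map (algebraMap (AA p) (FractionRing (AA p)))) (symb (u1 p) (u2 p) (u3 p)) := by
  have := isDomain_AA p
  rw [mapC3_symb]
  exact exists_bar4_units p hp (algebraMap (AA p) (FractionRing (AA p)))
    (IsFractionRing.injective _ _)

end Vale.Agent.P178.H911
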