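import Vale.Agent.P178.H873.Bar

/-!
Torus classes in the bar complex: for pairwise commuting `x, y, z` the chain
`TT x y z = ∑ sgn(σ) [x_σ1 | x_σ2 | x_σ3]`, and its properties modulo boundaries.
-/

namespace Vale.Agent.P178.H911

open H873

variable {G S : Type*} [Group G] [Group S]

/-- `[g|h|k|l] ↦ [h|k|l] - [gh|k|l] + [g|hk|l] - [g|h|kl] + [g|h|k]` -/
noncomputable def bar4 (G : Type*) [Group G] : (G × G × G × G →₀ ℤ) →+ (G × G × G →₀ ℤ) :=
  Finsupp.liftAddHom fun p => AddMonoidHom.mk' (fun n : ℤ =>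
    Finsupp.single (p.2.1, p.2.2.1, p.2.2.2) n - Finsupp.single (p.1 * p.2.1, p.2.2.1, p.2.2.2) n
      + Finsupp.single (p.1, p.2.1 * p.2.2.1, p.2.2.2) n
      - Finsupp.single (p.1, p.2.1, p.2.2.1 * p.2.2.2) n
      + Finsupp.single (p.1, p.2.1, p.2.2.1) n)
    (by intro a b; simp only [Finsupp.single_add]; abel)

@[simp] theorem bar4_single (g h k l : G) (n : ℤ) : bar4 G (Finsupp.single (g, h, k, l) n) =
    Finsupp.single (h, k, l) n - Finsupp.single (g * h, k, l) n
      + Finsupp.single (g, h * k, l) n - Finsupp.single (g, h, k * l) n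
      + Finsupp.single (g, h, k) n := by
  simp [bar4]

theorem bar3_bar4 (c : G × G × G × G →₀ ℤ) : bar3 G (bar4 G c) = 0 := by
  induction c using Finsupp.induction_linear with
  | zero => simp
  | add a b ha hb => rw [map_add, map_add, ha, hb, add_zero]
  | single p n =>
    obtain ⟨g, h, k, l⟩ := p
    simp only [bar4_single, map_add, map_sub, bar3_single, mul_assoc]
    abel

/-- prism operator in degree 1: `[s] ↦ [g|φ s] - [φ s|g]` -/
noncomputable def P1 (φ : S →* G) (g : G) : (S →₀ ℤ) →+ (G × G →₀ ℤ) :=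
  Finsupp.liftAddHom fun s => AddMonoidHom.mk' (fun n : ℤ =>
    Finsupp.single (g, φ s) n - Finsupp.single (φ s, g) n)
    (by intro a b; simp only [Finsupp.single_add]; abel)

@[simp] theorem P1_single (φ : S →* G) (g : G) (s : S) (n : ℤ) :
    P1 φ g (Finsupp.single s n) = Finsupp.single (g, φ s) n - Finsupp.single (φ s, g) n := by
  simp [P1]

/-- prism operator in degree 2 -/
noncomputable def P2 (φ : S →* G) (g : G) : (S × S →₀ ℤ) →+ (G × G × G →₀ ℤ) :=
  Finsupp.liftAddHom fun p => AddMonoidHom.mk' (fun n : ℤ =>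
    Finsupp.single (g, φ p.1, φ p.2) n - Finsupp.single (φ p.1, g, φ p.2) n
      + Finsupp.single (φ p.1, φ p.2, g) n)
    (by intro a b; simp only [Finsupp.single_add]; abel)

@[simp] theorem P2_single (φ : S →* G) (g : G) (s t : S) (n : ℤ) :
    P2 φ g (Finsupp.single (s, t) n) = Finsupp.single (g, φ s, φ t) n
      - Finsupp.single (φ s, g, φ t) n + Finsupp.single (φ s, φ t, g) n := by
  simp [P2]

/-- prism operator in degree 3 -/
noncomputable def P3 (φ : S →* G) (g : G) : (S × S × S →₀ ℤ) →+ (G × G × G × G →₀ ℤ) :=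
  Finsupp.liftAddHom fun p => AddMonoidHom.mk' (fun n : ℤ =>
    Finsupp.single (g, φ p.1, φ p.2.1, φ p.2.2) n - Finsupp.single (φ p.1, g, φ p.2.1, φ p.2.2) n
      + Finsupp.single (φ p.1, φ p.2.1, g, φ p.2.2) n
      - Finsupp.single (φ p.1, φ p.2.1, φ p.2.2, g) n)
    (by intro a b; simp only [Finsupp.single_add]; abel)

@[simp] theorem P3_single (φ : S →* G) (g : G) (s t u : S) (n : ℤ) :
    P3 φ g (Finsupp.single (s, t, u) n) = Finsupp.single (g, φ s, φ t, φ u) n
      - Finsupp.single (φ s, g, φ t, φ u) n + Finsupp.single (φ s, φ t, g, φ u) n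
      - Finsupp.single (φ s, φ t, φ u, g) n := by
  simp [P3]

theorem bar2_P1 (φ : S →* G) (g : G) (hg : ∀ s, Commute g (φ s)) (c : S →₀ ℤ) :
    bar2 G (P1 φ g c) = 0 := by
  induction c using Finsupp.induction_linear with
  | zero => simp
  | add a b ha hb => rw [map_add, map_add, ha, hb, add_zero]
  | single s n =>
    rw [P1_single, map_sub, bar2_single, bar2_single, (hg s).eq]
    abel

theorem bar3_P2 (φ : S →* G) (g : G) (hg : ∀ s, Commute g (φ s)) (c : S × S →₀ ℤ) :
    bar3 G (P2 φ g c) = - P1 φ g (bar2 S c) := by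
  induction c using Finsupp.induction_linear with
  | zero => simp
  | add a b ha hb => rw [map_add, map_add, ha, hb, map_add, map_add, neg_add]
  | single p n =>
    obtain ⟨s, t⟩ := p
    simp only [P2_single, map_add, map_sub, bar3_single, bar2_single, P1_single, map_mul,
      (hg s).eq, (hg t).eq]
    abel

theorem bar4_P3 (φ : S →* G) (g : G) (hg : ∀ s, Commute g (φ s)) (c : S × S × S →₀ ℤ) :
    bar4 G (P3 φ g c) = - P2 φ g (bar3 S c) := by
  induction c using Finsupp.induction_linear with
  | zero => simp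
  | add a b ha hb => rw [map_add, map_add, ha, hb, map_add, map_add, neg_add]
  | single p n =>
    obtain ⟨s, t, u⟩ := p
    simp only [P3_single, map_add, map_sub, bar4_single, bar3_single, P2_single, map_mul,
      (hg s).eq, (hg t).eq, (hg u).eq]
    abel

/-- the torus chain -/
noncomputable def TT (x y z : G) : G × G × G →₀ ℤ :=
  Finsupp.single (x, y, z) 1 - Finsupp.single (y, x, z) 1 + Finsupp.single (y, z, x) 1
    - Finsupp.single (z, y, x) 1 + Finsupp.single (z, x, y) 1 - Finsupp.single (x, z, y) 1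

omit [Group G] in
theorem TT_rot (x y z : G) : TT y z x = TT x y z := by
  unfold TT; abel

theorem bar3_TT {x y z : G} (hxy : Commute x y) (hyz : Commute y z) (hxz : Commute x z) :
    bar3 G (TT x y z) = 0 := by
  simp only [TT, map_add, map_sub, bar3_single, hxy.eq, hyz.eq, hxz.eq]
  abel

/-- chains of degree 3 modulo boundaries -/
abbrev H3 (G : Type*) [Group G] : Type _ := (G × G × G →₀ ℤ) ⧸ (bar4 G).range

/-- the class of the torus chain -/
noncomputable def tau (x y z : G) : H3 G := QuotientAddGroup.mk (TT x y z)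

theorem tau_rot (x y z : G) : tau y z x = tau x y z := by
  unfold tau; rw [TT_rot]

theorem tau_eq_zero_iff (x y z : G) : tau x y z = 0 ↔ ∃ w, bar4 G w = TT x y z := by
  unfold tau
  rw [QuotientAddGroup.eq_zero_iff]; rfl

/-- `H₂`-vanishing: `y, z` come from a group with `H₂ = 0` commuting with `x` -/
theorem tau_of_H2 (hS : ∀ z : S × S →₀ ℤ, bar2 S z = 0 → ∃ w, bar3 S w = z) (φ : S →* G)
    (x : G) (hx : ∀ s, Commute x (φ s)) {y z : S} (hyz : Commute y z) :
    tau (φ y) (φ z) x = 0 := by
  obtain ⟨w, hw⟩ := hS (Finsupp.single (y, z) 1 - Finsupp.single (z, y) 1) (by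
    rw [map_sub, bar2_single, bar2_single, hyz.eq]; abel)
  rw [tau_eq_zero_iff]
  refine ⟨- P3 φ x w, ?_⟩
  rw [map_neg, bar4_P3 φ x hx, neg_neg, hw, map_sub, P2_single, P2_single, TT]
  abel

section shuffle

variable (φ : S →* G) {y z : G}

/-- the homomorphism to the centralizer -/
noncomputable def toCent (hz : ∀ s, Commute z (φ s)) : S →* Subgroup.centralizer {z} :=
  φ.codRestrict _ fun s => by
    rw [Subgroup.mem_centralizer_singleton_iff]; exact (hz s).eq.symm

/-- the double prism operator -/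
theorem double_prism (hy : ∀ s, Commute y (φ s)) (hz : ∀ s, Commute z (φ s)) (hyz : Commute y z)
    (c : S × S →₀ ℤ) : ∃ w, bar4 G w = - Finsupp.liftAddHom (fun s : S =>
      (AddMonoidHom.mk' (fun n : ℤ => n • TT (φ s) y z) (by intro a b; exact add_zsmul _ _ _)))
        (bar2 S c) := by
  let C := Subgroup.centralizer {z}
  let ψ : C →* G := C.subtype
  let y' : C := ⟨y, by rw [Subgroup.mem_centralizer_singleton_iff]; exact hyz.eq⟩
  let φ' : S →* C := toCent φ hz
  have hφ' : ∀ s, ψ (φ' s) = φ s := fun s => rfl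
  have hy' : ∀ s, Commute y' (φ' s) := fun s => by
    apply Subtype.ext
    exact (hy s).eq
  have hzψ : ∀ s, Commute z (ψ s) := fun s => by
    have := s.2
    rw [Subgroup.mem_centralizer_singleton_iff] at this
    exact this.symm
  refine ⟨P3 ψ z (P2 φ' y' c), ?_⟩
  rw [bar4_P3 ψ z hzψ, bar3_P2 φ' y' hy', map_neg, neg_neg]
  generalize bar2 S c = d
  induction d using Finsupp.induction_linear with
  | zero => simp
  | add a b ha hb => rw [map_add, map_add, ha, hb, map_add, neg_add]
  | single s n =>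
    have e1 : (Finsupp.single s n : S →₀ ℤ) = n • Finsupp.single s 1 := by simp
    rw [e1, map_zsmul, map_zsmul, map_zsmul, ← smul_neg]
    congr 1
    rw [P1_single, map_sub, P2_single, P2_single]
    simp only [Finsupp.liftAddHom_apply_single, AddMonoidHom.mk'_apply, one_zsmul, hφ']
    have : ψ y' = y := rfl
    rw [this, TT]
    abel

/-- perfect vanishing: `x` comes from a group with `H₁ = 0` commuting with `y` and `z` -/
theorem tau_of_H1 (hS : Function.Surjective (bar2 S)) (hy : ∀ s, Commute y (φ s))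
    (hz : ∀ s, Commute z (φ s)) (hyz : Commute y z) (s : S) : tau (φ s) y z = 0 := by
  obtain ⟨c, hc⟩ := hS (Finsupp.single s 1)
  obtain ⟨w, hw⟩ := double_prism φ hy hz hyz c
  rw [hc] at hw
  rw [tau_eq_zero_iff]
  refine ⟨-w, ?_⟩
  rw [map_neg, hw, neg_neg]
  simp

end shuffle

/-- additivity in the first variable -/
theorem tau_mul {x x' y z : G} (hxy : Commute x y) (hxz : Commute x z) (hx'y : Commute x' y)
    (hx'z : Commute x' z) (hyz : Commute y z) :
    tau (x * x') y z = tau x y z + tau x' y z := by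
  let S := Subgroup.centralizer ({y, z} : Set G)
  let φ : S →* G := S.subtype
  have hmem : ∀ s : S, Commute y (s : G) ∧ Commute z (s : G) := fun s => by
    have := s.2
    rw [Subgroup.mem_centralizer_iff] at this
    exact ⟨this y (by simp), this z (by simp)⟩
  have hin : ∀ x : G, Commute x y → Commute x z → x ∈ S := fun x h1 h2 => by
    rw [Subgroup.mem_centralizer_iff]
    rintro h (rfl | hh)
    · exact h1.eq.symm
    · rw [Set.mem_singleton_iff.1 hh]; exact h2.eq.symm
  let s : S := ⟨x, hin x hxy hxz⟩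
  let t : S := ⟨x', hin x' hx'y hx'z⟩
  obtain ⟨w, hw⟩ := double_prism φ (fun s => (hmem s).1) (fun s => (hmem s).2) hyz
    (Finsupp.single (s, t) 1)
  rw [bar2_single] at hw
  simp only [map_add, map_sub, Finsupp.liftAddHom_apply_single, AddMonoidHom.mk'_apply,
    one_zsmul] at hw
  have h1 : φ (s * t) = x * x' := rfl
  have h2 : φ s = x := rfl
  have h3 : φ t = x' := rfl
  simp only [h1, h2, h3] at hw
  have h4 : (QuotientAddGroup.mk (bar4 G w) : H3 G) = 0 :=
    (QuotientAddGroup.eq_zero_iff _).2 ⟨w, rfl⟩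
  rw [hw] at h4
  rw [QuotientAddGroup.mk_neg, QuotientAddGroup.mk_add, QuotientAddGroup.mk_sub] at h4
  have h5 : -(tau x' y z - tau (x * x') y z + tau x y z) = 0 := h4
  rw [neg_eq_zero] at h5
  have h6 : tau (x * x') y z - (tau x y z + tau x' y z) = 0 := by
    rw [← neg_eq_zero, ← h5]; abel
  exact sub_eq_zero.1 h6

/-- additivity in the second variable -/
theorem tau_mul₂ {x y y' z : G} (hxy : Commute x y) (hxz : Commute x z) (hxy' : Commute x y')
    (hyz : Commute y z) (hy'z : Commute y' z) :
    tau x (y * y') z = tau x y z + tau x y' z := by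
  rw [← tau_rot x (y * y') z, ← tau_rot x y z, ← tau_rot x y' z]
  exact tau_mul hyz hxy.symm hy'z hxy'.symm hxz.symm

/-- additivity in the third variable -/
theorem tau_mul₃ {x y z z' : G} (hxy : Commute x y) (hxz : Commute x z) (hxz' : Commute x z')
    (hyz : Commute y z) (hyz' : Commute y z') :
    tau x y (z * z') = tau x y z + tau x y z' := by
  rw [tau_rot (z * z') x y, tau_rot z x y, tau_rot z' x y]
  exact tau_mul hxz.symm hyz.symm hxz'.symm hyz'.symm hxy

section maps

variable {H : Type*} [Group H] (f : G →* H)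

/-- a homomorphism on 2-chains -/
noncomputable def mapC2 : (G × G →₀ ℤ) →+ (H × H →₀ ℤ) :=
  Finsupp.mapDomain.addMonoidHom fun p => (f p.1, f p.2)

/-- a homomorphism on 3-chains -/
noncomputable def mapC3 : (G × G × G →₀ ℤ) →+ (H × H × H →₀ ℤ) :=
  Finsupp.mapDomain.addMonoidHom fun p => (f p.1, f p.2.1, f p.2.2)

/-- a homomorphism on 4-chains -/
noncomputable def mapC4 : (G × G × G × G →₀ ℤ) →+ (H × H × H × H →₀ ℤ) :=
  Finsupp.mapDomain.addMonoidHom fun p => (f p.1, f p.2.1, f p.2.2.1, f p.2.2.2)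

@[simp] theorem mapC2_single (x y : G) (n : ℤ) :
    mapC2 f (Finsupp.single (x, y) n) = Finsupp.single (f x, f y) n :=
  Finsupp.mapDomain_single

@[simp] theorem mapC3_single (x y z : G) (n : ℤ) :
    mapC3 f (Finsupp.single (x, y, z) n) = Finsupp.single (f x, f y, f z) n :=
  Finsupp.mapDomain_single

@[simp] theorem mapC4_single (x y z t : G) (n : ℤ) :
    mapC4 f (Finsupp.single (x, y, z, t) n) = Finsupp.single (f x, f y, f z, f t) n :=
  Finsupp.mapDomain_single

theorem mapC3_TT (x y z : G) : mapC3 f (TT x y z) = TT (f x) (f y) (f z) := by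
  simp only [TT, map_add, map_sub, mapC3_single]

theorem bar3_mapC3 (c : G × G × G →₀ ℤ) : bar3 H (mapC3 f c) = mapC2 f (bar3 G c) := by
  induction c using Finsupp.induction_linear with
  | zero => simp
  | add a b ha hb => simp only [map_add, ha, hb]
  | single p n =>
    obtain ⟨x, y, z⟩ := p
    simp only [mapC3_single, bar3_single, map_add, map_sub, mapC2_single, map_mul]

theorem bar4_mapC4 (c : G × G × G × G →₀ ℤ) : bar4 H (mapC4 f c) = mapC3 f (bar4 G c) := by
  induction c using Finsupp.induction_linear with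
  | zero => simp
  | add a b ha hb => simp only [map_add, ha, hb]
  | single p n =>
    obtain ⟨x, y, z, t⟩ := p
    simp only [mapC4_single, bar4_single, map_add, map_sub, mapC3_single, map_mul]

end maps

end Vale.Agent.P178.H911
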