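import Vale.Agent.P178.H911.ToGL

/-!
Evaluation of the trace cochain on the symbol chain.
-/

namespace Vale.Agent.P178.H911

open H873 Matrix

variable {A : Type*} [CommRing A] {k : Type*} [CommRing k]

/-- linear extension of a cochain -/
noncomputable def ev3 {G : Type*} (F : G × G × G → k) : (G × G × G →₀ ℤ) →+ k :=
  Finsupp.liftAddHom fun g => AddMonoidHom.mk' (fun n : ℤ => n • F g)
    (by intro a b; exact add_zsmul _ _ _)

@[simp] theorem ev3_single {G : Type*} (F : G × G × G → k) (g : G × G × G) (n : ℤ) :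
    ev3 F (Finsupp.single g n) = n • F g := by
  simp [ev3]

theorem ev3_TT {G : Type*} [Group G] (F : G × G × G → k) (x y z : G) :
    ev3 F (TT x y z) = F (x, y, z) - F (y, x, z) + F (y, z, x) - F (z, y, x) + F (z, x, y)
      - F (x, z, y) := by
  simp [TT]

/-- sums of logarithmic derivatives over the weights of the symbol -/
theorem sum_weights (dl : Fin 3 → Aˣ → k) (h1 : ∀ l a b, dl l (a * b) = dl l a + dl l b)
    (a b c : Aˣ) (l m n : Fin 3) :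
    ∑ v : I, dl l (achr a v) * dl m (bchr b v) * dl n (cchr c v) = dl l a * dl m b * dl n c := by
  have h0 : ∀ l, dl l 1 = 0 := fun l => by
    have := h1 l 1 1
    rw [mul_one] at this
    have h2 : dl l 1 + 0 = dl l 1 + dl l 1 := by rw [add_zero]; exact this
    exact (add_left_cancel h2).symm
  rw [Finset.sum_eq_single (0, 0, 0)]
  · simp [achr, bchr, cchr, wt]
  · rintro ⟨i, j, q⟩ - hv
    fin_cases i <;> fin_cases j <;> fin_cases q <;>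
      first
        | exact absurd rfl hv
        | simp [achr, bchr, cchr, wt, h0]
  · intro h; exact absurd (Finset.mem_univ _) h

/-- the value of a trace cochain on the symbol chain -/
theorem ev3_symb (F : St I A × St I A × St I A → k) (ε : k) (dl : Fin 3 → Aˣ → k)
    (h1 : ∀ l a b, dl l (a * b) = dl l a + dl l b)
    (hF : ∀ (g₁ g₂ g₃ : St I A) (χ₁ χ₂ χ₃ : I → Aˣ), Dg g₁ χ₁ → Dg g₂ χ₂ → Dg g₃ χ₃ →
      F (g₁, g₂, g₃) = ε * ∑ v : I, dl 0 (χ₁ v) * dl 1 (χ₂ v) * dl 2 (χ₃ v)) (a b c : Aˣ) :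
    ev3 F (symb a b c) = ε * Matrix.det !![dl 0 a, dl 1 a, dl 2 a; dl 0 b, dl 1 b, dl 2 b;
      dl 0 c, dl 1 c, dl 2 c] := by
  have ha := dg_ahat a
  have hb := dg_bhat b
  have hc := dg_chat c
  have S := sum_weights dl h1 a b c
  rw [symb, ev3_TT, hF _ _ _ _ _ _ ha hb hc, hF _ _ _ _ _ _ hb ha hc, hF _ _ _ _ _ _ hb hc ha,
    hF _ _ _ _ _ _ hc hb ha, hF _ _ _ _ _ _ hc ha hb, hF _ _ _ _ _ _ ha hc hb]
  have s1 := S 0 1 2
  have s2 : ∑ v : I, dl 0 (bchr b v) * dl 1 (achr a v) * dl 2 (cchr c v) =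
      dl 1 a * dl 0 b * dl 2 c := by
    rw [← S 1 0 2]; exact Finset.sum_congr rfl fun v _ => by ring
  have s3 : ∑ v : I, dl 0 (bchr b v) * dl 1 (cchr c v) * dl 2 (achr a v) =
      dl 2 a * dl 0 b * dl 1 c := by
    rw [← S 2 0 1]; exact Finset.sum_congr rfl fun v _ => by ring
  have s4 : ∑ v : I, dl 0 (cchr c v) * dl 1 (bchr b v) * dl 2 (achr a v) =
      dl 2 a * dl 1 b * dl 0 c := by
    rw [← S 2 1 0]; exact Finset.sum_congr rfl fun v _ => by ring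
  have s5 : ∑ v : I, dl 0 (cchr c v) * dl 1 (achr a v) * dl 2 (bchr b v) =
      dl 1 a * dl 2 b * dl 0 c := by
    rw [← S 1 2 0]; exact Finset.sum_congr rfl fun v _ => by ring
  have s6 : ∑ v : I, dl 0 (achr a v) * dl 1 (cchr c v) * dl 2 (bchr b v) =
      dl 0 a * dl 2 b * dl 1 c := by
    rw [← S 0 2 1]; exact Finset.sum_congr rfl fun v _ => by ring
  rw [s1, s2, s3, s4, s5, s6, Matrix.det_fin_three]
  simp
  ring

section trace

variable (φ : A →+* k) (D : Fin 3 → A →+ k)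
  (hD : ∀ l a b, D l (a * b) = φ a * D l b + φ b * D l a)

/-- logarithmic derivative of a unit -/
def dlg (l : Fin 3) (u : Aˣ) : k := φ ((u⁻¹ : Aˣ) : A) * D l (u : A)

include hD in
theorem dlg_mul (l : Fin 3) (a b : Aˣ) : dlg φ D l (a * b) = dlg φ D l a + dlg φ D l b := by
  unfold dlg
  have h1 : φ ((a⁻¹ : Aˣ) : A) * φ (a : A) = 1 := by rw [← map_mul, Units.inv_mul, map_one]
  have h2 : φ ((b⁻¹ : Aˣ) : A) * φ (b : A) = 1 := by rw [← map_mul, Units.inv_mul, map_one]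
  rw [Units.val_mul, hD, mul_inv, Units.val_mul, map_mul]
  linear_combination φ ((b⁻¹ : Aˣ) : A) * D l (b : A) * h1 + φ ((a⁻¹ : Aˣ) : A) * D l (a : A) * h2

variable {n : Type*} [Fintype n] [DecidableEq n]

/-- the form `ω_l(g) = ḡ⁻¹ D_l(g)` -/
def omg (l : Fin 3) (g : (Matrix n n A)ˣ) : Matrix n n k :=
  ((g⁻¹ : (Matrix n n A)ˣ) : Matrix n n A).map φ * (g : Matrix n n A).map (D l)

/-- the trace cochain `Tr(ω_0(g₁)^{g₂g₃} ω_1(g₂)^{g₃} ω_2(g₃))` -/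
def trF (g₁ g₂ g₃ : (Matrix n n A)ˣ) : k :=
  Matrix.trace (((((g₂ * g₃)⁻¹ : (Matrix n n A)ˣ) : Matrix n n A).map φ * omg φ D 0 g₁ *
    (((g₂ * g₃ : (Matrix n n A)ˣ) : Matrix n n A).map φ)) *
    ((((g₃⁻¹ : (Matrix n n A)ˣ) : Matrix n n A).map φ) * omg φ D 1 g₂ *
      ((g₃ : Matrix n n A).map φ)) * omg φ D 2 g₃)

theorem map_diag_inv (g : (Matrix n n A)ˣ) (χ : n → Aˣ)
    (hg : (g : Matrix n n A) = Matrix.diagonal fun v => (χ v : A)) :
    ((g⁻¹ : (Matrix n n A)ˣ) : Matrix n n A) = Matrix.diagonal fun v => (((χ v)⁻¹ : Aˣ) : A) := by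
  refine Units.inv_eq_of_mul_eq_one_right ?_
  rw [hg, Matrix.diagonal_mul_diagonal]
  simp

omit [Fintype n] in
theorem map_diag (ψ : A →+ k) (d : n → A) :
    (Matrix.diagonal d).map ψ = Matrix.diagonal fun v => ψ (d v) := by
  rw [Matrix.diagonal_map (map_zero ψ)]

theorem omg_diag (l : Fin 3) (g : (Matrix n n A)ˣ) (χ : n → Aˣ)
    (hg : (g : Matrix n n A) = Matrix.diagonal fun v => (χ v : A)) :
    omg φ D l g = Matrix.diagonal fun v => dlg φ D l (χ v) := by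
  unfold omg
  rw [map_diag_inv g χ hg, hg, map_diag]
  have := map_diag (φ : A →+ k) fun v => (((χ v)⁻¹ : Aˣ) : A)
  rw [show (Matrix.diagonal fun v => (((χ v)⁻¹ : Aˣ) : A)).map φ =
    (Matrix.diagonal fun v => (((χ v)⁻¹ : Aˣ) : A)).map (φ : A →+ k) from rfl, this,
    Matrix.diagonal_mul_diagonal]
  rfl

theorem trF_diag (g₁ g₂ g₃ : (Matrix n n A)ˣ) (χ₁ χ₂ χ₃ : n → Aˣ)
    (h₁ : (g₁ : Matrix n n A) = Matrix.diagonal fun v => (χ₁ v : A))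
    (h₂ : (g₂ : Matrix n n A) = Matrix.diagonal fun v => (χ₂ v : A))
    (h₃ : (g₃ : Matrix n n A) = Matrix.diagonal fun v => (χ₃ v : A)) :
    trF φ D g₁ g₂ g₃ =
      ∑ v, dlg φ D 0 (χ₁ v) * dlg φ D 1 (χ₂ v) * dlg φ D 2 (χ₃ v) := by
  have h₂₃ : ((g₂ * g₃ : (Matrix n n A)ˣ) : Matrix n n A) =
      Matrix.diagonal fun v => ((χ₂ v * χ₃ v : Aˣ) : A) := by
    rw [Units.val_mul, h₂, h₃, Matrix.diagonal_mul_diagonal]
    simp
  have M : ∀ (d : n → A), (Matrix.diagonal d).map φ = Matrix.diagonal fun v => φ (d v) :=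
    fun d => map_diag (φ : A →+ k) d
  unfold trF
  rw [omg_diag φ D 0 g₁ χ₁ h₁, omg_diag φ D 1 g₂ χ₂ h₂, omg_diag φ D 2 g₃ χ₃ h₃,
    map_diag_inv (g₂ * g₃) (fun v => χ₂ v * χ₃ v) h₂₃, h₂₃, map_diag_inv g₃ χ₃ h₃, h₃]
  simp only [M, Matrix.diagonal_mul_diagonal, Matrix.trace_diagonal]
  refine Finset.sum_congr rfl fun v _ => ?_
  have e1 : φ (((χ₂ v * χ₃ v)⁻¹ : Aˣ) : A) * φ ((χ₂ v * χ₃ v : Aˣ) : A) = 1 := by
    rw [← map_mul, Units.inv_mul, map_one]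
  have e2 : φ (((χ₃ v)⁻¹ : Aˣ) : A) * φ ((χ₃ v : Aˣ) : A) = 1 := by
    rw [← map_mul, Units.inv_mul, map_one]
  calc φ (((χ₂ v * χ₃ v)⁻¹ : Aˣ) : A) * dlg φ D 0 (χ₁ v) * φ ((χ₂ v * χ₃ v : Aˣ) : A) *
        (φ (((χ₃ v)⁻¹ : Aˣ) : A) * dlg φ D 1 (χ₂ v) * φ ((χ₃ v : Aˣ) : A)) * dlg φ D 2 (χ₃ v)
      = (φ (((χ₂ v * χ₃ v)⁻¹ : Aˣ) : A) * φ ((χ₂ v * χ₃ v : Aˣ) : A)) *
        (φ (((χ₃ v)⁻¹ : Aˣ) : A) * φ ((χ₃ v : Aˣ) : A)) *
        (dlg φ D 0 (χ₁ v) * dlg φ D 1 (χ₂ v) * dlg φ D 2 (χ₃ v)) := by ring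
    _ = _ := by rw [e1, e2, one_mul, one_mul]

include hD in
/-- the trace cochain on the symbol chain is the determinant of the logarithmic derivatives -/
theorem trF_symb (ε : k) (a b c : Aˣ) :
    ev3 (fun g : St I A × St I A × St I A =>
      ε * trF φ D (St.toGL g.1) (St.toGL g.2.1) (St.toGL g.2.2)) (symb a b c) =
    ε * Matrix.det !![dlg φ D 0 a, dlg φ D 1 a, dlg φ D 2 a;
      dlg φ D 0 b, dlg φ D 1 b, dlg φ D 2 b; dlg φ D 0 c, dlg φ D 1 c, dlg φ D 2 c] := by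
  refine ev3_symb _ ε (dlg φ D) (dlg_mul φ D hD) ?_ a b c
  intro g₁ g₂ g₃ χ₁ χ₂ χ₃ h₁ h₂ h₃
  simp only
  rw [trF_diag φ D _ _ _ χ₁ χ₂ χ₃ h₁ h₂ h₃]

end trace

end Vale.Agent.P178.H911
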