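import Vale.Agent.P178.H873.Bar

/-!
Weyl and torus elements of the Steinberg group over a commutative ring, their action on root
elements, and the relation `h(u) h(v⁻¹) = h(u v⁻¹)` for `u + v = 1`.
-/

namespace Vale.Agent.P178.H911

open scoped commutatorElement
open H873

variable {ι : Type*} {A : Type*} [CommRing A]

section basic

variable {i j k l : ι}

/-- `x_ij(a) x_jk(b) = (x_ik(ab) x_jk(b)) x_ij(a)` -/
theorem x_semi (hij : i ≠ j) (hjk : j ≠ k) (hik : i ≠ k) (a b : A) :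
    SemiconjBy (St.x i j a : St ι A) (St.x j k b) (St.x i k (a * b) * St.x j k b) := by
  have h := St.x_comm (A := A) hij hjk hik a b
  rw [commutatorElement_def] at h
  rw [SemiconjBy, ← h]; group

/-- `x_jk(a) x_ij(b) = (x_ik(-ab) x_ij(b)) x_jk(a)` -/
theorem x_semi' (hij : i ≠ j) (hjk : j ≠ k) (hik : i ≠ k) (a b : A) :
    SemiconjBy (St.x j k a : St ι A) (St.x i j b) (St.x i k (-(a * b)) * St.x i j b) := by
  have h := St.x_comm (A := A) hij hjk hik b a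
  rw [commutatorElement_def] at h
  rw [SemiconjBy, St.x_neg, mul_comm a b, ← h]; group

/-- the element `w_ij(u)` -/
noncomputable def w (i j : ι) (u : Aˣ) : St ι A :=
  St.x i j (u : A) * St.x j i (-((u⁻¹ : Aˣ) : A)) * St.x i j (u : A)

theorem w_inv (i j : ι) (u : Aˣ) : (w i j u : St ι A)⁻¹ = w i j (-u) := by
  simp only [w, mul_inv_rev, ← St.x_neg, Units.val_neg, inv_neg, neg_neg, mul_assoc]

/-- `w_ij(u) x_jk(r) = x_ik(u r) w_ij(u)` -/
theorem w_jk (hij : i ≠ j) (hjk : j ≠ k) (hik : i ≠ k) (u : Aˣ) (r : A) :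
    SemiconjBy (w i j u : St ι A) (St.x j k r) (St.x i k (u * r)) := by
  have h1 := x_semi hij hjk hik (u : A) r
  have h2 : SemiconjBy (St.x j i (-((u⁻¹ : Aˣ) : A)) : St ι A)
      (St.x i k ((u : A) * r) * St.x j k r) (St.x i k ((u : A) * r)) := by
    have e1 := x_semi hij.symm hik hjk (-((u⁻¹ : Aˣ) : A)) ((u : A) * r)
    have e2 : SemiconjBy (St.x j i (-((u⁻¹ : Aˣ) : A)) : St ι A) (St.x j k r) (St.x j k r) :=
      St.commute_x hij hjk _ _
    have e3 := e1.mul_right e2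
    have e4 : (St.x j k (-((u⁻¹ : Aˣ) : A) * ((u : A) * r)) * St.x i k ((u : A) * r) * St.x j k r
        : St ι A) = St.x i k ((u : A) * r) := by
      have : -((u⁻¹ : Aˣ) : A) * ((u : A) * r) = -r := by
        rw [neg_mul, ← mul_assoc, Units.inv_mul, one_mul]
      rw [this]
      have hc : Commute (St.x i k ((u : A) * r) : St ι A) (St.x j k r) :=
        St.commute_x hjk.symm hik _ _
      rw [mul_assoc, hc.eq, ← mul_assoc, St.x_neg, inv_mul_cancel, one_mul]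
    rw [e4] at e3
    exact e3
  have h3 : SemiconjBy (St.x i j (u : A) : St ι A) (St.x i k ((u : A) * r))
      (St.x i k ((u : A) * r)) := St.commute_x hij.symm hik _ _
  exact (h3.mul_left h2).mul_left h1

/-- `w_ij(u) x_ik(r) = x_jk(-u⁻¹ r) w_ij(u)` -/
theorem w_ik (hij : i ≠ j) (hjk : j ≠ k) (hik : i ≠ k) (u : Aˣ) (r : A) :
    SemiconjBy (w i j u : St ι A) (St.x i k r) (St.x j k (-((u⁻¹ : Aˣ) : A) * r)) := by
  have h1 : SemiconjBy (St.x i j (u : A) : St ι A) (St.x i k r) (St.x i k r) :=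
    St.commute_x hij.symm hik _ _
  have h2 := x_semi hij.symm hik hjk (-((u⁻¹ : Aˣ) : A)) r
  have h3 : SemiconjBy (St.x i j (u : A) : St ι A)
      (St.x j k (-((u⁻¹ : Aˣ) : A) * r) * St.x i k r) (St.x j k (-((u⁻¹ : Aˣ) : A) * r)) := by
    have e1 := x_semi hij hjk hik (u : A) (-((u⁻¹ : Aˣ) : A) * r)
    have e3 := e1.mul_right h1
    have e4 : (St.x i k ((u : A) * (-((u⁻¹ : Aˣ) : A) * r)) * St.x j k (-((u⁻¹ : Aˣ) : A) * r)
        * St.x i k r : St ι A) = St.x j k (-((u⁻¹ : Aˣ) : A) * r) := by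
      have : (u : A) * (-((u⁻¹ : Aˣ) : A) * r) = -r := by
        rw [← mul_assoc, mul_neg, Units.mul_inv, neg_one_mul]
      rw [this]
      have hc : Commute (St.x j k (-((u⁻¹ : Aˣ) : A) * r) : St ι A) (St.x i k r) :=
        St.commute_x hik.symm hjk _ _
      rw [mul_assoc, hc.eq, ← mul_assoc, St.x_neg, inv_mul_cancel, one_mul]
    rw [e4] at e3
    exact e3
  exact (h3.mul_left h2).mul_left h1

/-- `w_ij(u) x_kj(r) = x_ki(u⁻¹ r) w_ij(u)` -/
theorem w_kj (hij : i ≠ j) (hjk : j ≠ k) (hik : i ≠ k) (u : Aˣ) (r : A) :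
    SemiconjBy (w i j u : St ι A) (St.x k j r) (St.x k i (((u⁻¹ : Aˣ) : A) * r)) := by
  have h1 : SemiconjBy (St.x i j (u : A) : St ι A) (St.x k j r) (St.x k j r) :=
    St.commute_x hjk hij _ _
  have h2 := x_semi' hjk.symm hij.symm hik.symm (-((u⁻¹ : Aˣ) : A)) r
  rw [neg_mul, neg_neg] at h2
  have h3 : SemiconjBy (St.x i j (u : A) : St ι A)
      (St.x k i (((u⁻¹ : Aˣ) : A) * r) * St.x k j r) (St.x k i (((u⁻¹ : Aˣ) : A) * r)) := by
    have e1 := x_semi' hik.symm hij hjk.symm (u : A) (((u⁻¹ : Aˣ) : A) * r)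
    have e3 := e1.mul_right h1
    have e4 : (St.x k j (-((u : A) * (((u⁻¹ : Aˣ) : A) * r))) * St.x k i (((u⁻¹ : Aˣ) : A) * r)
        * St.x k j r : St ι A) = St.x k i (((u⁻¹ : Aˣ) : A) * r) := by
      have : (u : A) * (((u⁻¹ : Aˣ) : A) * r) = r := by
        rw [← mul_assoc, Units.mul_inv, one_mul]
      rw [this]
      have hc : Commute (St.x k i (((u⁻¹ : Aˣ) : A) * r) : St ι A) (St.x k j r) :=
        St.commute_x hik hjk.symm _ _
      rw [mul_assoc, hc.eq, ← mul_assoc, St.x_neg, inv_mul_cancel, one_mul]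
    rw [e4] at e3
    exact e3
  exact (h3.mul_left h2).mul_left h1

/-- `w_ij(u) x_ki(r) = x_kj(-u r) w_ij(u)` -/
theorem w_ki (hij : i ≠ j) (hjk : j ≠ k) (hik : i ≠ k) (u : Aˣ) (r : A) :
    SemiconjBy (w i j u : St ι A) (St.x k i r) (St.x k j (-(u * r))) := by
  have h1 := x_semi' hik.symm hij hjk.symm (u : A) r
  have h2 : SemiconjBy (St.x j i (-((u⁻¹ : Aˣ) : A)) : St ι A)
      (St.x k j (-((u : A) * r)) * St.x k i r) (St.x k j (-((u : A) * r))) := by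
    have e1 := x_semi' hjk.symm hij.symm hik.symm (-((u⁻¹ : Aˣ) : A)) (-((u : A) * r))
    have e2 : SemiconjBy (St.x j i (-((u⁻¹ : Aˣ) : A)) : St ι A) (St.x k i r) (St.x k i r) :=
      St.commute_x hik hij.symm _ _
    have e3 := e1.mul_right e2
    have e4 : (St.x k i (-(-((u⁻¹ : Aˣ) : A) * -((u : A) * r))) * St.x k j (-((u : A) * r))
        * St.x k i r : St ι A) = St.x k j (-((u : A) * r)) := by
      have : -(-((u⁻¹ : Aˣ) : A) * -((u : A) * r)) = -r := by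
        rw [neg_mul_neg, ← mul_assoc, Units.inv_mul, one_mul]
      rw [this]
      have hc : Commute (St.x k j (-((u : A) * r)) : St ι A) (St.x k i r) :=
        St.commute_x hjk hik.symm _ _
      rw [mul_assoc, hc.eq, ← mul_assoc, St.x_neg, inv_mul_cancel, one_mul]
    rw [e4] at e3
    exact e3
  have h3 : SemiconjBy (St.x i j (u : A) : St ι A) (St.x k j (-((u : A) * r)))
      (St.x k j (-((u : A) * r))) := St.commute_x hjk hij _ _
  exact (h3.mul_left h2).mul_left h1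

/-- `w_ij(u)` commutes with `x_kl(r)` for `k, l ∉ {i, j}` -/
theorem w_kl (hki : k ≠ i) (hkj : k ≠ j) (hli : l ≠ i) (hlj : l ≠ j) (u : Aˣ) (r : A) :
    SemiconjBy (w i j u : St ι A) (St.x k l r) (St.x k l r) := by
  have h1 : ∀ a : A, Commute (St.x i j a : St ι A) (St.x k l r) :=
    fun a => St.commute_x hkj.symm hli.symm _ _
  have h2 : ∀ a : A, Commute (St.x j i a : St ι A) (St.x k l r) :=
    fun a => St.commute_x hki.symm hlj.symm _ _
  exact ((h1 _).mul_left (h2 _)).mul_left (h1 _)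

/-- commutators under `SemiconjBy` -/
theorem semi_comm {G : Type*} [Group G] {g a b a' b' : G} (h1 : SemiconjBy g a a')
    (h2 : SemiconjBy g b b') : SemiconjBy g ⁅a, b⁆ ⁅a', b'⁆ := by
  rw [commutatorElement_def, commutatorElement_def]
  exact ((h1.mul_right h2).mul_right h1.inv_right).mul_right h2.inv_right

/-- `w_ij(u) x_ij(r) = x_ji(-u⁻² r) w_ij(u)` -/
theorem w_ij (hij : i ≠ j) (hq : ∃ k, k ≠ i ∧ k ≠ j) (u : Aˣ) (r : A) :
    SemiconjBy (w i j u : St ι A) (St.x i j r)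
      (St.x j i (-((u⁻¹ : Aˣ) : A) * (((u⁻¹ : Aˣ) : A) * r))) := by
  obtain ⟨k, hki, hkj⟩ := hq
  have h := semi_comm (w_ik hij hkj.symm hki.symm u (1 : A))
    (w_kj hij hkj.symm hki.symm u r)
  rw [St.x_comm hki.symm hkj hij, St.x_comm hkj.symm hki hij.symm, one_mul, mul_one] at h
  exact h

/-- `w_ij(u) x_ji(r) = x_ij(-u² r) w_ij(u)` -/
theorem w_ji (hij : i ≠ j) (hq : ∃ k, k ≠ i ∧ k ≠ j) (u : Aˣ) (r : A) :
    SemiconjBy (w i j u : St ι A) (St.x j i r) (St.x i j (-((u : A) * ((u : A) * r)))) := by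
  obtain ⟨k, hki, hkj⟩ := hq
  have h := semi_comm (w_jk hij hkj.symm hki.symm u (1 : A))
    (w_ki hij hkj.symm hki.symm u r)
  rw [St.x_comm hkj.symm hki hij.symm, St.x_comm hki.symm hkj hij, one_mul, mul_one] at h
  rw [show -((u : A) * ((u : A) * r)) = (u : A) * -((u : A) * r) by ring]
  exact h

/-- `w_ij(u) = w_ji(-u⁻¹)` -/
theorem w_swap (hij : i ≠ j) (hq : ∃ k, k ≠ i ∧ k ≠ j) (u : Aˣ) :
    (w i j u : St ι A) = w j i (-u⁻¹) := by
  have h1 := w_ij hij hq u (u : A)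
  rw [show -((u⁻¹ : Aˣ) : A) * (((u⁻¹ : Aˣ) : A) * (u : A)) = -((u⁻¹ : Aˣ) : A) by
    rw [Units.inv_mul, mul_one]] at h1
  have h2 := w_ji hij hq u (-((u⁻¹ : Aˣ) : A))
  rw [show -((u : A) * ((u : A) * -((u⁻¹ : Aˣ) : A))) = (u : A) by
    rw [mul_neg, Units.mul_inv, mul_neg, mul_one, neg_neg]] at h2
  have h3 : SemiconjBy (w i j u : St ι A) (w i j u) (w j i (-u⁻¹)) := by
    have := (h1.mul_right h2).mul_right h1
    rw [w, w]
    simpa [w] using this
  exact (mul_right_cancel h3 : (w i j u : St ι A) = w j i (-u⁻¹))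

/-- the element `h_ij(u)` -/
noncomputable def h (i j : ι) (u : Aˣ) : St ι A := w i j u * w i j (-1)

/-- `g` acts on the root elements through the diagonal character `χ` -/
def Acts (g : St ι A) (χ : ι → Aˣ) : Prop :=
  ∀ (k l : ι) (r : A), k ≠ l → SemiconjBy g (St.x k l r) (St.x k l ((χ k : A) * ((χ l)⁻¹ : Aˣ) * r))

theorem Acts.mul {g g' : St ι A} {χ χ' : ι → Aˣ} (h1 : Acts g χ) (h2 : Acts g' χ') :
    Acts (g * g') (χ * χ') := by
  intro k l r hkl
  have := (h1 k l ((χ' k : A) * ((χ' l)⁻¹ : Aˣ) * r) hkl).mul_left (h2 k l r hkl)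
  have e : (((χ * χ') k : Aˣ) : A) * (((χ * χ') l)⁻¹ : Aˣ) * r =
      (χ k : A) * ((χ l)⁻¹ : Aˣ) * ((χ' k : A) * ((χ' l)⁻¹ : Aˣ) * r) := by
    simp only [Pi.mul_apply, mul_inv, Units.val_mul]
    ring
  rw [e]; exact this

theorem Acts.one : Acts (1 : St ι A) 1 := by
  intro k l r _
  simp [SemiconjBy]

theorem Acts.inv {g : St ι A} {χ : ι → Aˣ} (h1 : Acts g χ) : Acts g⁻¹ χ⁻¹ := by
  intro k l r hkl
  have := h1 k l ((((χ⁻¹) k : Aˣ) : A) * (((χ⁻¹) l)⁻¹ : Aˣ) * r) hkl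
  have e : (χ k : A) * ((χ l)⁻¹ : Aˣ) * ((((χ⁻¹) k : Aˣ) : A) * (((χ⁻¹) l)⁻¹ : Aˣ) * r) = r := by
    simp only [Pi.inv_apply, inv_inv]
    calc (χ k : A) * ((χ l)⁻¹ : Aˣ) * ((((χ k)⁻¹ : Aˣ) : A) * ((χ l : Aˣ) : A) * r)
        = ((χ k : A) * (((χ k)⁻¹ : Aˣ) : A)) * ((((χ l)⁻¹ : Aˣ) : A) * (χ l : A)) * r := by ring
      _ = r := by rw [Units.mul_inv, Units.inv_mul, one_mul, one_mul]
  rw [e] at this
  exact this.inv_symm_left

/-- an element acting trivially on all root elements is central -/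
theorem Acts.central {g : St ι A} {χ : ι → Aˣ} (h1 : Acts g χ) (hχ : ∀ k l, χ k = χ l)
    (y : St ι A) : Commute g y := by
  have hS : Subgroup.centralizer {g} = (⊤ : Subgroup (St ι A)) := by
    refine St.eq_top_of_x_mem _ fun i j a hij => ?_
    rw [Subgroup.mem_centralizer_singleton_iff]
    have := h1 i j a hij
    rw [hχ i j, Units.mul_inv, one_mul] at this
    exact this.eq.symm
  have hy : y ∈ Subgroup.centralizer {g} := by rw [hS]; trivial
  rw [Subgroup.mem_centralizer_singleton_iff] at hy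
  exact hy.symm

theorem Acts.commute_x {g : St ι A} {χ : ι → Aˣ} (h1 : Acts g χ) {k l : ι} (hχ : χ k = χ l)
    (r : A) : Commute g (St.x k l r) := by
  by_cases hkl : k = l
  · subst hkl; simp
  have := h1 k l r hkl
  rw [hχ, Units.mul_inv, one_mul] at this
  exact this

theorem Acts.commute_w {g : St ι A} {χ : ι → Aˣ} (h1 : Acts g χ) {k l : ι} (hχ : χ k = χ l)
    (u : Aˣ) : Commute g (w k l u) :=
  ((h1.commute_x hχ _).mul_right (h1.commute_x hχ.symm _)).mul_right (h1.commute_x hχ _)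

theorem Acts.commute_h {g : St ι A} {χ : ι → Aˣ} (h1 : Acts g χ) {k l : ι} (hχ : χ k = χ l)
    (u : Aˣ) : Commute g (h k l u) :=
  (h1.commute_w hχ _).mul_right (h1.commute_w hχ _)

/-- conjugation of `w_kl(u)` by a torus element -/
theorem Acts.semi_w {g : St ι A} {χ : ι → Aˣ} (h1 : Acts g χ) {k l : ι} (hkl : k ≠ l) (u : Aˣ) :
    SemiconjBy g (w k l u) (w k l (χ k * (χ l)⁻¹ * u)) := by
  have e := ((h1 k l u hkl).mul_right (h1 l k (-((u⁻¹ : Aˣ) : A)) hkl.symm)).mul_right (h1 k l u hkl)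
  have e2 : (-(((χ k * (χ l)⁻¹ * u)⁻¹ : Aˣ) : A)) =
      (χ l : A) * ((χ k)⁻¹ : Aˣ) * (-((u⁻¹ : Aˣ) : A)) := by
    simp only [mul_inv, inv_inv, Units.val_mul]; ring
  unfold w
  rw [e2]
  simp only [Units.val_mul]
  exact e

/-- conjugation of `h_kl(u)` by a torus element: `g h(u) = h(c u) h(c)⁻¹ g` -/
theorem Acts.semi_h {g : St ι A} {χ : ι → Aˣ} (h1 : Acts g χ) {k l : ι} (hkl : k ≠ l) (u : Aˣ) :
    SemiconjBy g (h k l u) (h k l (χ k * (χ l)⁻¹ * u) * (h k l (χ k * (χ l)⁻¹))⁻¹) := by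
  have e := (h1.semi_w hkl u).mul_right (h1.semi_w hkl (-1))
  have e2 : h k l (χ k * (χ l)⁻¹ * u) * (h k l (χ k * (χ l)⁻¹))⁻¹ =
      (w k l (χ k * (χ l)⁻¹ * u) * w k l (χ k * (χ l)⁻¹ * -1) : St ι A) := by
    rw [h, h, mul_inv_rev, w_inv, w_inv, neg_neg, mul_neg_one]
    have : (w k l (-1) * w k l 1 : St ι A) = 1 := by
      rw [← w_inv, inv_mul_cancel]
    calc w k l (χ k * (χ l)⁻¹ * u) * w k l (-1) * (w k l 1 * w k l (-(χ k * (χ l)⁻¹)))
        = w k l (χ k * (χ l)⁻¹ * u) * (w k l (-1) * w k l 1) * w k l (-(χ k * (χ l)⁻¹)) := by group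
      _ = _ := by rw [this, mul_one]
  rw [e2]
  exact e

open Classical in
/-- the character of `h_ij(u)` -/
noncomputable def chr (i j : ι) (u : Aˣ) : ι → Aˣ := fun k => if k = i then u else if k = j then u⁻¹ else 1

theorem chr_i (i j : ι) (u : Aˣ) : chr i j u i = u := by simp [chr]
theorem chr_j (hij : i ≠ j) (u : Aˣ) : chr i j u j = u⁻¹ := by simp [chr, hij.symm]
theorem chr_k (hki : k ≠ i) (hkj : k ≠ j) (u : Aˣ) : chr i j u k = 1 := by simp [chr, hki, hkj]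

/-- `h_ij(u)` acts through its character -/
theorem acts_h (hij : i ≠ j) (hq : ∃ k, k ≠ i ∧ k ≠ j) (u : Aˣ) :
    Acts (h i j u : St ι A) (chr i j u) := by
  intro k l r hkl
  have m1 : ((-1 : Aˣ) : A) = -1 := by simp
  have m2 : (((-1 : Aˣ)⁻¹ : Aˣ) : A) = -1 := by simp
  by_cases hki : k = i
  · subst hki
    by_cases hlj : l = j
    · subst hlj
      have e := (w_ji hkl hq u (-((((-1 : Aˣ)⁻¹ : Aˣ) : A)) * (((((-1 : Aˣ)⁻¹ : Aˣ) : A)) * r))).mul_left
        (w_ij hkl hq (-1) r)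
      rw [chr_i, chr_j hij, inv_inv]
      rw [m2] at e
      rw [show -((u : A) * ((u : A) * (- -1 * (-1 * r)))) = (u : A) * u * r by ring] at e
      exact e
    · have e := (w_jk hij (Ne.symm hlj) hkl u (-((((-1 : Aˣ)⁻¹ : Aˣ) : A)) * r)).mul_left
        (w_ik hij (Ne.symm hlj) hkl (-1) r)
      rw [chr_i, chr_k hkl.symm hlj, inv_one, Units.val_one, mul_one]
      rw [m2] at e
      rw [show (u : A) * (- -1 * r) = (u : A) * r by ring] at e
      exact e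
  · by_cases hkj : k = j
    · subst hkj
      by_cases hli : l = i
      · subst hli
        have e := (w_ij hij hq u (-(((-1 : Aˣ) : A) * (((-1 : Aˣ) : A) * r)))).mul_left
          (w_ji hij hq (-1) r)
        rw [chr_i, chr_j hij]
        rw [m1] at e
        rw [show -((u⁻¹ : Aˣ) : A) * (((u⁻¹ : Aˣ) : A) * -(-1 * (-1 * r))) =
          ((u⁻¹ : Aˣ) : A) * ((u⁻¹ : Aˣ) : A) * r by ring] at e
        exact e
      · have e := (w_ik hij hkl (Ne.symm hli) u (((-1 : Aˣ) : A) * r)).mul_left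
          (w_jk hij hkl (Ne.symm hli) (-1) r)
        rw [chr_j hij, chr_k hli hkl.symm, inv_one, Units.val_one, mul_one]
        rw [m1] at e
        rw [show -((u⁻¹ : Aˣ) : A) * (-1 * r) = ((u⁻¹ : Aˣ) : A) * r by ring] at e
        exact e
    · by_cases hli : l = i
      · subst hli
        have e := (w_kj hij (Ne.symm hkj) (Ne.symm hki) u (-(((-1 : Aˣ) : A) * r))).mul_left
          (w_ki hij (Ne.symm hkj) (Ne.symm hki) (-1) r)
        rw [chr_i, chr_k hki hkj, Units.val_one, one_mul]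
        rw [m1] at e
        rw [show ((u⁻¹ : Aˣ) : A) * -(-1 * r) = ((u⁻¹ : Aˣ) : A) * r by ring] at e
        exact e
      · by_cases hlj : l = j
        · subst hlj
          have e := (w_ki hij (Ne.symm hkj) (Ne.symm hki) u ((((-1 : Aˣ)⁻¹ : Aˣ) : A) * r)).mul_left
            (w_kj hij (Ne.symm hkj) (Ne.symm hki) (-1) r)
          rw [chr_j hij, chr_k hki hkj, Units.val_one, one_mul, inv_inv]
          rw [m2] at e
          rw [show -((u : A) * (-1 * r)) = (u : A) * r by ring] at e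
          exact e
        · rw [chr_k hki hkj, chr_k hli hlj, inv_one, Units.val_one, one_mul, one_mul]
          exact (w_kl hki hkj hli hlj u r).mul_left (w_kl hki hkj hli hlj (-1) r)

/-! ### The Steinberg relation -/

/-- `w(u) w(v) = w(u/v) w(1)` for `u + v = 1` -/
theorem w_mul (hij : i ≠ j) (hq : ∃ k, k ≠ i ∧ k ≠ j) (u v : Aˣ) (huv : (u : A) + v = 1) :
    (w i j u * w i j v : St ι A) = w i j (u * v⁻¹) * w i j 1 := by
  have hiu : ((u⁻¹ : Aˣ) : A) + ((v⁻¹ : Aˣ) : A) = ((u⁻¹ : Aˣ) : A) * ((v⁻¹ : Aˣ) : A) := by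
    have h1 : ((u⁻¹ : Aˣ) : A) * u = 1 := Units.inv_mul u
    have h2 : ((v⁻¹ : Aˣ) : A) * v = 1 := Units.inv_mul v
    calc ((u⁻¹ : Aˣ) : A) + ((v⁻¹ : Aˣ) : A)
        = ((u⁻¹ : Aˣ) : A) * (((v⁻¹ : Aˣ) : A) * v) + ((v⁻¹ : Aˣ) : A) * (((u⁻¹ : Aˣ) : A) * u) := by
          rw [h1, h2, mul_one, mul_one]
      _ = ((u⁻¹ : Aˣ) : A) * ((v⁻¹ : Aˣ) : A) * ((u : A) + v) := by ring
      _ = _ := by rw [huv, mul_one]
  -- w(u) x_ji(1/(uv)) w(v) = x_ji(-1/u) x_ij(1) x_ji(-1/v)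
  have s1 : (w i j u * St.x j i (((u⁻¹ : Aˣ) : A) * ((v⁻¹ : Aˣ) : A)) * w i j v : St ι A) =
      St.x j i (-((u⁻¹ : Aˣ) : A)) * St.x i j 1 * St.x j i (-((v⁻¹ : Aˣ) : A)) := by
    rw [w_swap hij hq u, w_swap hij hq v, ← hiu, St.x_add]
    simp only [w, Units.val_neg, inv_neg, inv_inv, neg_neg]
    rw [← huv, St.x_add, St.x_neg j i ((u⁻¹ : Aˣ) : A), St.x_neg j i ((v⁻¹ : Aˣ) : A)]
    group
  -- x_ij(1) = x_ji(1) w(1) x_ji(1)
  have s2 : (St.x i j (1 : A) : St ι A) = St.x j i 1 * w i j 1 * St.x j i 1 := by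
    rw [w_swap hij hq 1]
    simp only [w, inv_one, Units.val_neg, Units.val_one, inv_neg, neg_neg, St.x_neg]
    group
  have s3 : SemiconjBy (w i j u : St ι A) (St.x j i (((u⁻¹ : Aˣ) : A) * ((v⁻¹ : Aˣ) : A)))
      (St.x i j (-((u : A) * ((v⁻¹ : Aˣ) : A)))) := by
    have := w_ji hij hq u (((u⁻¹ : Aˣ) : A) * ((v⁻¹ : Aˣ) : A))
    rw [show (u : A) * ((u : A) * (((u⁻¹ : Aˣ) : A) * ((v⁻¹ : Aˣ) : A))) =
      (u * ((u⁻¹ : Aˣ) : A)) * ((u : A) * ((v⁻¹ : Aˣ) : A)) by ring, Units.mul_inv, one_mul] at this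
    exact this
  have s4 : SemiconjBy (w i j 1 : St ι A) (St.x j i (1 - ((v⁻¹ : Aˣ) : A)))
      (St.x i j ((u : A) * ((v⁻¹ : Aˣ) : A))) := by
    have := w_ji hij hq 1 (1 - ((v⁻¹ : Aˣ) : A))
    rw [Units.val_one, one_mul, one_mul, neg_sub] at this
    have e : ((v⁻¹ : Aˣ) : A) - 1 = (u : A) * ((v⁻¹ : Aˣ) : A) := by
      have h2 : (v : A) * ((v⁻¹ : Aˣ) : A) = 1 := Units.mul_inv v
      calc ((v⁻¹ : Aˣ) : A) - 1 = ((v⁻¹ : Aˣ) : A) * ((u : A) + v) - (v : A) * ((v⁻¹ : Aˣ) : A) := by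
            rw [huv, h2, mul_one]
        _ = _ := by ring
    rw [e] at this
    exact this
  have e5 : (1 - ((u⁻¹ : Aˣ) : A)) = -(((u * v⁻¹ : Aˣ)⁻¹ : Aˣ) : A) := by
    have h2 : (u : A) * ((u⁻¹ : Aˣ) : A) = 1 := Units.mul_inv u
    rw [mul_inv, inv_inv, Units.val_mul]
    calc (1 - ((u⁻¹ : Aˣ) : A)) = (u : A) * ((u⁻¹ : Aˣ) : A) - ((u⁻¹ : Aˣ) : A) * ((u : A) + v) := by
          rw [huv, h2, mul_one]
      _ = _ := by ring
  have s5 : (St.x i j (-((u : A) * ((v⁻¹ : Aˣ) : A))) * w i j u * w i j v : St ι A) =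
      St.x j i (1 - ((u⁻¹ : Aˣ) : A)) * (w i j 1 * St.x j i (1 - ((v⁻¹ : Aˣ) : A))) := by
    rw [← s3.eq, s1, s2, sub_eq_add_neg, sub_eq_add_neg, add_comm (1 : A) (-((u⁻¹ : Aˣ) : A)),
      St.x_add, St.x_add]
    group
  rw [s4.eq, e5, St.x_neg i j, mul_assoc, inv_mul_eq_iff_eq_mul] at s5
  rw [s5]
  conv_rhs => rw [w]
  rw [Units.val_mul]
  group

/-- the Steinberg relation, first form -/
theorem h_mul (hij : i ≠ j) (hq : ∃ k, k ≠ i ∧ k ≠ j) (u v : Aˣ) (huv : (u : A) + v = 1) :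
    (h i j u * h i j v⁻¹ : St ι A) = h i j (u * v⁻¹) := by
  have e1 := w_mul hij hq u v huv
  have m1 : (w i j (-1) * w i j 1 : St ι A) = 1 := by rw [← w_inv, inv_mul_cancel]
  have m2 : (w i j 1 * w i j (-1) : St ι A) = 1 := by rw [← w_inv, mul_inv_cancel]
  -- w(-1) w(v⁻¹) w(1) = w(v)
  have e2 : SemiconjBy (w i j (-1) : St ι A) (w i j v⁻¹) (w i j v) := by
    have a1 := w_ij hij hq (-1) ((v⁻¹ : Aˣ) : A)
    have a2 := w_ji hij hq (-1) (-(v : A))
    have a3 := (a1.mul_right a2).mul_right a1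
    have : (w i j v : St ι A) = w j i (-v⁻¹) := w_swap hij hq v
    rw [this]
    simp only [w, inv_neg, inv_one, inv_inv, Units.val_neg, Units.val_one] at a3 ⊢
    simpa using a3
  have e3 : (w i j (-1) * w i j v⁻¹ : St ι A) = w i j v * w i j (-1) := e2.eq
  rw [h, h, h]
  calc (w i j u * w i j (-1) * (w i j v⁻¹ * w i j (-1)) : St ι A)
      = w i j u * (w i j (-1) * w i j v⁻¹) * w i j (-1) := by group
    _ = (w i j u * w i j v) * w i j (-1) * w i j (-1) := by rw [e3]; group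
    _ = w i j (u * v⁻¹) * (w i j 1 * w i j (-1)) * w i j (-1) := by rw [e1]; group
    _ = _ := by rw [m2, mul_one]

/-- the Steinberg relation `{a, b} = 1` for `a + b = 1` -/
theorem steinberg (hij : i ≠ j) (hik : i ≠ k) (hjk : j ≠ k)
    (a b : Aˣ) (hab : (a : A) + b = 1) : Commute (h i j a : St ι A) (h i k b) := by
  have hqij : ∃ q, q ≠ i ∧ q ≠ j := ⟨k, hik.symm, hjk.symm⟩
  have hqik : ∃ q, q ≠ i ∧ q ≠ k := ⟨j, hij.symm, hjk⟩
  -- h_ij(a⁻¹) commutes with h_ik(b)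
  have hc : Commute (h i j a⁻¹ : St ι A) (h i k b) := by
    have e := (acts_h hij hqij a⁻¹).semi_h hik b
    rw [chr_i, chr_k hik.symm hjk.symm, inv_one, mul_one] at e
    have e2 := h_mul hik hqik b a (by rw [add_comm]; exact hab)
    rw [mul_comm a⁻¹ b, ← e2, mul_inv_cancel_right] at e
    exact e
  -- h_ij(a) = h_ij(a⁻¹)⁻¹ z
  have hz : Acts (h i j a * h i j a⁻¹ : St ι A) (chr i j a * chr i j a⁻¹) :=
    (acts_h hij hqij a).mul (acts_h hij hqij a⁻¹)
  have hz2 : Commute (h i j a * h i j a⁻¹ : St ι A) (h i k b) := by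
    refine hz.central (fun p q => ?_) _
    have : ∀ p, (chr i j a * chr i j a⁻¹) p = 1 := by
      intro p
      simp only [Pi.mul_apply, chr]
      split_ifs <;> simp
    rw [this, this]
  have : (h i j a : St ι A) = (h i j a * h i j a⁻¹) * (h i j a⁻¹)⁻¹ := by group
  rw [this]
  exact hz2.mul_left hc.inv_left

end basic

end Vale.Agent.P178.H911
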