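import Vale.Agent.P178.H911.Sym
import Vale.Agent.P178.H911.BarFour

/-!
The symbol class `symb a b c` (a three-cycle of `St I A`, `I = Fin 3 × Fin 3 × Fin 2`), its
trilinearity and Steinberg relations modulo boundaries, and the vanishing criterion.
-/

namespace Vale.Agent.P178.H911

open scoped commutatorElement
open H873

variable {ι κ : Type*} {A B : Type*} [CommRing A] [CommRing B]

/-- functoriality in the index type -/
noncomputable def mapIdx (f : κ → ι) (hf : Function.Injective f) : St κ A →* St ι A :=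
  St.lift (fun i j a => St.x (f i) (f j) a) (by simp)
    (by intro i j a b _; simp [St.x_add])
    (by intro i j k a b h1 h2 h3; exact St.x_comm (hf.ne h1) (hf.ne h2) (hf.ne h3) _ _)
    (by intro i j k l a b _ _ h3 h4; exact St.x_disj (hf.ne h3) (hf.ne h4) _ _)

@[simp] theorem mapIdx_x (f : κ → ι) (hf : Function.Injective f) (i j : κ) (a : A) :
    mapIdx f hf (St.x i j a : St κ A) = St.x (f i) (f j) a := St.lift_x _ _ _ _ _ _ _ _

@[simp] theorem mapIdx_w (f : κ → ι) (hf : Function.Injective f) (i j : κ) (u : Aˣ) :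
    mapIdx f hf (w i j u : St κ A) = w (f i) (f j) u := by
  simp [w]

@[simp] theorem mapIdx_h (f : κ → ι) (hf : Function.Injective f) (i j : κ) (u : Aˣ) :
    mapIdx f hf (h i j u : St κ A) = h (f i) (f j) u := by
  simp [h]

@[simp] theorem map_w (ψ : A →+* B) (i j : ι) (u : Aˣ) :
    St.map ψ (w i j u : St ι A) = w i j (Units.map (ψ : A →* B) u) := by
  simp only [w, map_mul, St.map_x, map_neg, ← map_inv, Units.coe_map]
  rfl

@[simp] theorem map_h (ψ : A →+* B) (i j : ι) (u : Aˣ) :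
    St.map ψ (h i j u : St ι A) = h i j (Units.map (ψ : A →* B) u) := by
  simp only [h, map_mul, map_w]
  congr 2
  ext; simp

/-- a homomorphism from a Steinberg group commutes with `z` as soon as the generators do -/
theorem commute_of_x {G : Type*} [Group G] (φ : St ι A →* G) (z : G)
    (hz : ∀ i j a, i ≠ j → Commute z (φ (St.x i j a))) (s : St ι A) : Commute z (φ s) := by
  have hS : (Subgroup.centralizer {z}).comap φ = (⊤ : Subgroup (St ι A)) := by
    refine St.eq_top_of_x_mem _ fun i j a hij => ?_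
    rw [Subgroup.mem_comap, Subgroup.mem_centralizer_singleton_iff]
    exact (hz i j a hij).eq.symm
  have hs : s ∈ (Subgroup.centralizer {z}).comap φ := by rw [hS]; trivial
  rw [Subgroup.mem_comap, Subgroup.mem_centralizer_singleton_iff] at hs
  exact hs.symm

/-- two homomorphisms from Steinberg groups have commuting images if the generators do -/
theorem commute_of_xx {G : Type*} [Group G] (φ : St ι A →* G) (ψ : St κ A →* G)
    (hz : ∀ i j a k l b, i ≠ j → k ≠ l → Commute (φ (St.x i j a)) (ψ (St.x k l b)))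
    (s : St ι A) (t : St κ A) : Commute (φ s) (ψ t) := by
  refine commute_of_x ψ (φ s) (fun k l b hkl => ?_) t
  exact (commute_of_x φ (ψ (St.x k l b)) (fun i j a hij => (hz i j a k l b hij hkl).symm) s).symm

section general

variable {G : Type*} [Group G]

/-- a central element in one slot kills -/
theorem tau_central (hG : ∀ z : G × G →₀ ℤ, bar2 G z = 0 → ∃ w, bar3 G w = z) {c y z : G}
    (hc : ∀ s, Commute c s) (hyz : Commute y z) : tau c y z = 0 := by
  rw [← tau_rot]
  exact tau_of_H2 hG (MonoidHom.id G) c hc hyz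

theorem tau_swap (x y z : G) : tau z y x = - tau x y z := by
  have : TT z y x = - TT x y z := by unfold TT; abel
  unfold tau
  rw [this]; rfl

theorem tau_inv₂ {x y z : G} (hxy : Commute x y) (hxz : Commute x z) (hyz : Commute y z) :
    tau x y⁻¹ z = - tau x y z := by
  have h1 := tau_mul₂ (x := x) (y := y) (y' := y⁻¹) (z := z) hxy hxz hxy.inv_right hyz
    hyz.inv_left
  rw [mul_inv_cancel] at h1
  have h2 := tau_mul₂ (x := x) (y := 1) (y' := 1) (z := z) (Commute.one_right _) hxz
    (Commute.one_right _) (Commute.one_left _) (Commute.one_left _)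
  rw [mul_one] at h2
  have h3 : tau x 1 z = 0 := by
    have : tau x 1 z + 0 = tau x 1 z + tau x 1 z := by rw [add_zero]; exact h2
    exact (add_left_cancel this).symm
  rw [h3] at h1
  exact (neg_eq_of_add_eq_zero_right h1.symm).symm

/-- the block argument -/
theorem block_vanish (h4 : ∀ i j k l : κ, ∃ q, q ≠ i ∧ q ≠ j ∧ q ≠ k ∧ q ≠ l)
    (φ : Fin 3 → (St κ A →* G)) (hφ : ∀ p q, p ≠ q → ∀ s t, Commute (φ p s) (φ q t)) (z : G)
    (hz : ∀ p s, Commute z (φ p s)) (β η : St κ A) (hβη : Commute β η) :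
    tau (φ 0 β * φ 1 β * φ 2 β) (φ 0 η * (φ 1 η)⁻¹) z = 0 := by
  have H1 : Function.Surjective (bar2 (St κ A)) := St.bar2_surjective h4
  have H2 := St.exists_bar3 (ι := κ) (A := A) h4
  have hc : ∀ p q, Commute (φ p β) (φ q η) := by
    intro p q
    by_cases hpq : p = q
    · subst hpq; exact hβη.map _
    · exact hφ p q hpq _ _
  have key : ∀ p q, tau (φ p β) (φ q η) z = 0 := by
    intro p q
    by_cases hpq : p = q
    · subst hpq
      exact tau_of_H2 H2 (φ p) z (hz p) hβη
    · exact tau_of_H1 (φ p) H1 (fun s => hφ q p (Ne.symm hpq) _ _) (hz p) (hz q η).symm β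
  have key2 : ∀ p, tau (φ p β) (φ 0 η * (φ 1 η)⁻¹) z = 0 := by
    intro p
    rw [tau_mul₂ (hc p 0) (hz p β).symm (hc p 1).inv_right (hz 0 η).symm (hz 1 η).symm.inv_left,
      tau_inv₂ (hc p 1) (hz p β).symm (hz 1 η).symm, key, key, neg_zero, add_zero]
  have c1 : ∀ p, Commute (φ p β) (φ 0 η * (φ 1 η)⁻¹) := fun p =>
    (hc p 0).mul_right (hc p 1).inv_right
  have c2 : Commute (φ 0 η * (φ 1 η)⁻¹) z := (hz 0 η).symm.mul_left (hz 1 η).symm.inv_left
  rw [tau_mul ((c1 0).mul_left (c1 1)) ((hz 0 β).symm.mul_left (hz 1 β).symm) (c1 2)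
    (hz 2 β).symm c2, tau_mul (c1 0) (hz 0 β).symm (c1 1) (hz 1 β).symm c2, key2, key2, key2]
  simp

end general

/-! ### The elements -/

/-- the index set -/
abbrev I : Type := Fin 3 × Fin 3 × Fin 2

/-- the index set of a block -/
abbrev J : Type := Fin 3 × Fin 2

/-- column embedding -/
def col (k : Fin 3) (p : J) : I := (p.1, k, p.2)
/-- row embedding -/
def row (i : Fin 3) (p : J) : I := (i, p.1, p.2)

theorem col_inj (k : Fin 3) : Function.Injective (col k) := by
  rintro ⟨a, b⟩ ⟨c, d⟩ h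
  simp only [col, Prod.mk.injEq] at h
  simp [h.1, h.2.2]

theorem row_inj (k : Fin 3) : Function.Injective (row k) := by
  rintro ⟨a, b⟩ ⟨c, d⟩ h
  simp only [row, Prod.mk.injEq] at h
  simp [h.2.1, h.2.2]

/-- column homomorphism -/
noncomputable def colHom (k : Fin 3) : St J A →* St I A := mapIdx (col k) (col_inj k)
/-- row homomorphism -/
noncomputable def rowHom (k : Fin 3) : St J A →* St I A := mapIdx (row k) (row_inj k)

/-- the block element -/
noncomputable def blk (a : Aˣ) : St J A := h (0, 0) (2, 0) a * h (0, 1) (2, 1) a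
/-- the small element -/
noncomputable def sml (a : Aˣ) : St J A := h (0, 0) (1, 0) a

/-- first torus element -/
noncomputable def ahat (a : Aˣ) : St I A :=
  colHom 0 (blk a) * colHom 1 (blk a) * colHom 2 (blk a)
/-- third torus element -/
noncomputable def chat (a : Aˣ) : St I A :=
  rowHom 0 (blk a) * rowHom 1 (blk a) * rowHom 2 (blk a)
/-- second torus element -/
noncomputable def bhat (a : Aˣ) : St I A := rowHom 0 (sml a) * (rowHom 1 (sml a))⁻¹
/-- second torus element, other form -/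
noncomputable def bhat' (a : Aˣ) : St I A := colHom 0 (sml a) * (colHom 1 (sml a))⁻¹

/-- exponent: `1, 0, -1` -/
def wt (u : Aˣ) (i : Fin 3) : Aˣ := if i = 0 then u else if i = 2 then u⁻¹ else 1

/-- the character of `ahat` -/
def achr (a : Aˣ) (p : I) : Aˣ := wt a p.1
/-- the character of `chat` -/
def cchr (a : Aˣ) (p : I) : Aˣ := wt a p.2.1
/-- the character of `bhat` -/
def bchr (a : Aˣ) (p : I) : Aˣ :=
  if p = (0, 0, 0) ∨ p = (1, 1, 0) then a else if p = (0, 1, 0) ∨ p = (1, 0, 0) then a⁻¹ else 1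

theorem exists_other {i j : I} : ∃ k : I, k ≠ i ∧ k ≠ j := by
  revert i j; decide

theorem exists_otherJ {i j : J} : ∃ k : J, k ≠ i ∧ k ≠ j := by
  revert i j; decide

theorem four_J (i j k l : J) : ∃ q, q ≠ i ∧ q ≠ j ∧ q ≠ k ∧ q ≠ l :=
  four_of_card (by simp) i j k l

theorem four_I (i j k l : I) : ∃ q, q ≠ i ∧ q ≠ j ∧ q ≠ k ∧ q ≠ l :=
  four_of_card (by simp) i j k l

theorem Acts.congr {g : St ι A} {χ χ' : ι → Aˣ} (h1 : Acts g χ) (hχ : χ = χ') : Acts g χ' :=
  hχ ▸ h1

theorem acts_ahat (a : Aˣ) : Acts (ahat a) (achr a) := by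
  have H : ∀ p q : I, p ≠ q → Acts (h p q a : St I A) (chr p q a) := fun p q hpq =>
    acts_h hpq exists_other a
  have h0 := (((H (0,0,0) (2,0,0) (by decide)).mul (H (0,0,1) (2,0,1) (by decide))).mul
    ((H (0,1,0) (2,1,0) (by decide)).mul (H (0,1,1) (2,1,1) (by decide)))).mul
    ((H (0,2,0) (2,2,0) (by decide)).mul (H (0,2,1) (2,2,1) (by decide)))
  have e : (ahat a : St I A) = h (0,0,0) (2,0,0) a * h (0,0,1) (2,0,1) a *
      (h (0,1,0) (2,1,0) a * h (0,1,1) (2,1,1) a) * (h (0,2,0) (2,2,0) a * h (0,2,1) (2,2,1) a) := by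
    simp only [ahat, blk, colHom, map_mul, mapIdx_h, col]
  rw [e]
  refine h0.congr ?_
  funext ⟨i, k, m⟩
  fin_cases i <;> fin_cases k <;> fin_cases m <;> simp [chr, achr, wt]

theorem acts_chat (a : Aˣ) : Acts (chat a) (cchr a) := by
  have H : ∀ p q : I, p ≠ q → Acts (h p q a : St I A) (chr p q a) := fun p q hpq =>
    acts_h hpq exists_other a
  have h0 := (((H (0,0,0) (0,2,0) (by decide)).mul (H (0,0,1) (0,2,1) (by decide))).mul
    ((H (1,0,0) (1,2,0) (by decide)).mul (H (1,0,1) (1,2,1) (by decide)))).mul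
    ((H (2,0,0) (2,2,0) (by decide)).mul (H (2,0,1) (2,2,1) (by decide)))
  have e : (chat a : St I A) = h (0,0,0) (0,2,0) a * h (0,0,1) (0,2,1) a *
      (h (1,0,0) (1,2,0) a * h (1,0,1) (1,2,1) a) * (h (2,0,0) (2,2,0) a * h (2,0,1) (2,2,1) a) := by
    simp only [chat, blk, rowHom, map_mul, mapIdx_h, row]
  rw [e]
  refine h0.congr ?_
  funext ⟨i, k, m⟩
  fin_cases i <;> fin_cases k <;> fin_cases m <;> simp [chr, cchr, wt]

theorem acts_bhat (a : Aˣ) : Acts (bhat a) (bchr a) := by
  have H : ∀ p q : I, p ≠ q → Acts (h p q a : St I A) (chr p q a) := fun p q hpq =>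
    acts_h hpq exists_other a
  have h0 := (H (0,0,0) (0,1,0) (by decide)).mul (H (1,0,0) (1,1,0) (by decide)).inv
  have e : (bhat a : St I A) = h (0,0,0) (0,1,0) a * (h (1,0,0) (1,1,0) a)⁻¹ := by
    simp only [bhat, sml, rowHom, mapIdx_h, row]
  rw [e]
  refine h0.congr ?_
  funext ⟨i, k, m⟩
  fin_cases i <;> fin_cases k <;> fin_cases m <;> simp [chr, bchr]

theorem acts_bhat' (a : Aˣ) : Acts (bhat' a) (bchr a) := by
  have H : ∀ p q : I, p ≠ q → Acts (h p q a : St I A) (chr p q a) := fun p q hpq =>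
    acts_h hpq exists_other a
  have h0 := (H (0,0,0) (1,0,0) (by decide)).mul (H (0,1,0) (1,1,0) (by decide)).inv
  have e : (bhat' a : St I A) = h (0,0,0) (1,0,0) a * (h (0,1,0) (1,1,0) a)⁻¹ := by
    simp only [bhat', sml, colHom, mapIdx_h, col]
  rw [e]
  refine h0.congr ?_
  funext ⟨i, k, m⟩
  fin_cases i <;> fin_cases k <;> fin_cases m <;> simp [chr, bchr]

theorem ahat_commute_row (a : Aˣ) (i : Fin 3) (s : St J A) : Commute (ahat a) (rowHom i s) := by
  refine commute_of_x (rowHom i) (ahat a) (fun p q r _ => ?_) s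
  rw [rowHom, mapIdx_x]
  exact (acts_ahat a).commute_x (k := row i p) (l := row i q) rfl r

theorem chat_commute_col (a : Aˣ) (k : Fin 3) (s : St J A) : Commute (chat a) (colHom k s) := by
  refine commute_of_x (colHom k) (chat a) (fun p q r _ => ?_) s
  rw [colHom, mapIdx_x]
  exact (acts_chat a).commute_x (k := col k p) (l := col k q) rfl r

theorem col_commute (p q : Fin 3) (hpq : p ≠ q) (s t : St J A) :
    Commute (colHom p s) (colHom q t) := by
  refine commute_of_xx (colHom p) (colHom q) (fun i j a k l b _ _ => ?_) s t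
  rw [colHom, colHom, mapIdx_x, mapIdx_x]
  refine St.commute_x ?_ ?_ _ _
  · intro h; exact hpq (congrArg (fun z : I => z.2.1) h)
  · intro h; exact hpq (congrArg (fun z : I => z.2.1) h)

theorem row_commute (p q : Fin 3) (hpq : p ≠ q) (s t : St J A) :
    Commute (rowHom p s) (rowHom q t) := by
  refine commute_of_xx (rowHom p) (rowHom q) (fun i j a k l b _ _ => ?_) s t
  rw [rowHom, rowHom, mapIdx_x, mapIdx_x]
  refine St.commute_x ?_ ?_ _ _
  · intro h; exact hpq (congrArg (fun z : I => z.1) h)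
  · intro h; exact hpq (congrArg (fun z : I => z.1) h)

/-- a quotient of two torus elements with the same character is central -/
theorem central_of_acts {g g' : St ι A} {χ : ι → Aˣ} (h1 : Acts g χ) (h2 : Acts g' χ) :
    ∀ s, Commute (g'⁻¹ * g) s := by
  intro s
  refine (h2.inv.mul h1).central (fun k l => ?_) s
  simp

theorem bhat_eq (b : Aˣ) : ∃ z : St I A, (∀ s, Commute z s) ∧ bhat b = bhat' b * z :=
  ⟨(bhat' b)⁻¹ * bhat b, central_of_acts (acts_bhat b) (acts_bhat' b), by group⟩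

theorem ahat_bhat (a b : Aˣ) : Commute (ahat a) (bhat b) :=
  (ahat_commute_row a 0 _).mul_right (ahat_commute_row a 1 _).inv_right

theorem chat_bhat' (c b : Aˣ) : Commute (chat c) (bhat' b) :=
  (chat_commute_col c 0 _).mul_right (chat_commute_col c 1 _).inv_right

theorem chat_bhat (c b : Aˣ) : Commute (chat c) (bhat b) := by
  obtain ⟨z, hz, e⟩ := bhat_eq b
  rw [e]
  exact (chat_bhat' c b).mul_right (hz _).symm

theorem ahat_bhat' (a b : Aˣ) : Commute (ahat a) (bhat' b) := by
  obtain ⟨z, hz, e⟩ := bhat_eq b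
  have : bhat' b = bhat b * z⁻¹ := by rw [e]; group
  rw [this]
  exact (ahat_bhat a b).mul_right (hz _).symm.inv_right

theorem chat_ahat (c a : Aˣ) : Commute (chat c) (ahat a) :=
  ((chat_commute_col c 0 _).mul_right (chat_commute_col c 1 _)).mul_right (chat_commute_col c 2 _)

/-- the symbol chain -/
noncomputable def symb (a b c : Aˣ) : St I A × St I A × St I A →₀ ℤ := TT (ahat a) (bhat b) (chat c)

theorem bar3_symb (a b c : Aˣ) : bar3 (St I A) (symb a b c) = 0 :=
  bar3_TT (ahat_bhat a b) (chat_bhat c b).symm (chat_ahat c a).symm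

/-- the symbol class -/
noncomputable def sy (a b c : Aˣ) : H3 (St I A) := tau (ahat a) (bhat b) (chat c)

theorem sy_eq_zero_iff (a b c : Aˣ) : sy a b c = 0 ↔ ∃ w, bar4 (St I A) w = symb a b c :=
  tau_eq_zero_iff _ _ _

theorem central_tau {c y z : St I A} (hc : ∀ s, Commute c s) (hyz : Commute y z) :
    tau c y z = 0 := tau_central (St.exists_bar3 four_I) hc hyz

theorem acts_mul_aux (f : Aˣ → St I A) (χ : Aˣ → I → Aˣ) (hf : ∀ a, Acts (f a) (χ a))
    (hχ : ∀ a a', χ (a * a') = χ a * χ a') (a a' : Aˣ) :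
    ∃ z : St I A, (∀ s, Commute z s) ∧ f (a * a') = f a * f a' * z := by
  refine ⟨(f a * f a')⁻¹ * f (a * a'), central_of_acts (hf (a * a')) ?_, by group⟩
  rw [hχ]
  exact (hf a).mul (hf a')

theorem wt_mul (a a' : Aˣ) (i : Fin 3) : wt (a * a') i = wt a i * wt a' i := by
  unfold wt; split_ifs <;> simp [mul_comm]

theorem achr_mul (a a' : Aˣ) : achr (a * a') = achr a * achr a' := by
  funext p; exact wt_mul _ _ _

theorem cchr_mul (a a' : Aˣ) : cchr (a * a') = cchr a * cchr a' := by
  funext p; exact wt_mul _ _ _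

theorem bchr_mul (a a' : Aˣ) : bchr (a * a') = bchr a * bchr a' := by
  funext p
  simp only [bchr, Pi.mul_apply]
  split_ifs <;> simp [mul_comm]

theorem sy_mul₁ (a a' b c : Aˣ) : sy (a * a') b c = sy a b c + sy a' b c := by
  obtain ⟨z, hz, e⟩ := acts_mul_aux ahat achr acts_ahat achr_mul a a'
  unfold sy
  have c1 := ahat_bhat a b
  have c2 := ahat_bhat a' b
  have c3 := (chat_ahat c a).symm
  have c4 := (chat_ahat c a').symm
  have c5 := (chat_bhat c b).symm
  rw [e, tau_mul (c1.mul_left c2) (c3.mul_left c4) (hz _) (hz _) c5, tau_mul c1 c3 c2 c4 c5,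
    central_tau hz c5, add_zero]

theorem sy_mul₂ (a b b' c : Aˣ) : sy a (b * b') c = sy a b c + sy a b' c := by
  obtain ⟨z, hz, e⟩ := acts_mul_aux bhat bchr acts_bhat bchr_mul b b'
  unfold sy
  have c1 := ahat_bhat a b
  have c2 := ahat_bhat a b'
  have c3 := (chat_ahat c a).symm
  have c4 := (chat_bhat c b).symm
  have c5 := (chat_bhat c b').symm
  rw [e, tau_mul₂ (c1.mul_right c2) c3 (hz _).symm (c4.mul_left c5) (hz _),
    tau_mul₂ c1 c3 c2 c4 c5]
  have : tau (ahat a) z (chat c) = 0 := by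
    rw [← tau_rot]
    exact central_tau hz c3.symm
  rw [this, add_zero]

theorem sy_mul₃ (a b c c' : Aˣ) : sy a b (c * c') = sy a b c + sy a b c' := by
  obtain ⟨z, hz, e⟩ := acts_mul_aux chat cchr acts_chat cchr_mul c c'
  unfold sy
  have c1 := ahat_bhat a b
  have c2 := (chat_ahat c a).symm
  have c3 := (chat_ahat c' a).symm
  have c4 := (chat_bhat c b).symm
  have c5 := (chat_bhat c' b).symm
  rw [e, tau_mul₃ c1 (c2.mul_right c3) (hz _).symm (c4.mul_right c5) (hz _).symm,
    tau_mul₃ c1 c2 c3 c4 c5]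
  have : tau (ahat a) (bhat b) z = 0 := by
    rw [tau_rot z (ahat a) (bhat b)]
    exact central_tau hz c1
  rw [this, add_zero]

theorem blk_sml (a b : Aˣ) (hab : (a : A) + b = 1) : Commute (blk a : St J A) (sml b) := by
  refine Commute.mul_left ?_ ?_
  · exact steinberg (by decide) (by decide) (by decide) a b hab
  · have H := acts_h (A := A) (i := ((0 : Fin 3), (0 : Fin 2))) (j := (1, 0)) (by decide)
      exists_otherJ b
    refine (H.commute_h ?_ a).symm
    rw [chr_k (by decide) (by decide), chr_k (by decide) (by decide)]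

/-- Steinberg relation in the first two slots -/
theorem sy_steinberg₁₂ (a b c : Aˣ) (hab : (a : A) + b = 1) : sy a b c = 0 := by
  obtain ⟨z, hz, e⟩ := bhat_eq b
  unfold sy
  have c1 := ahat_bhat' a b
  have c3 := (chat_ahat c a).symm
  have c4 := (chat_bhat' c b).symm
  rw [e, tau_mul₂ c1 c3 (hz _).symm c4 (hz _)]
  have h1 : tau (ahat a) z (chat c) = 0 := by
    rw [← tau_rot]
    exact central_tau hz c3.symm
  have h2 : tau (ahat a) (bhat' b) (chat c) = 0 :=
    block_vanish four_J colHom col_commute (chat c) (chat_commute_col c) (blk a) (sml b)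
      (blk_sml a b hab)
  rw [h1, h2, add_zero]

/-- Steinberg relation in the last two slots -/
theorem sy_steinberg₂₃ (a b c : Aˣ) (hbc : (b : A) + c = 1) : sy a b c = 0 := by
  unfold sy
  rw [← neg_eq_zero, ← tau_swap]
  exact block_vanish four_J rowHom row_commute (ahat a) (ahat_commute_row a) (blk c) (sml b)
    (blk_sml c b (by rw [add_comm]; exact hbc))

/-! ### Vanishing -/

theorem sy_pow₂ (a b c : Aˣ) (n : ℕ) : sy a (b ^ n) c = n • sy a b c := by
  induction n with
  | zero =>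
    have h2 := sy_mul₂ a 1 1 c
    rw [mul_one] at h2
    have : sy a 1 c + 0 = sy a 1 c + sy a 1 c := by rw [add_zero]; exact h2
    rw [pow_zero, zero_nsmul]
    exact (add_left_cancel this).symm
  | succ n ih => rw [pow_succ, sy_mul₂, ih, succ_nsmul]

theorem sy_inv₂ (a b c : Aˣ) : sy a b⁻¹ c = - sy a b c := by
  have h1 := sy_mul₂ a b b⁻¹ c
  rw [mul_inv_cancel] at h1
  have h2 := sy_pow₂ a b c 0
  rw [pow_zero, zero_nsmul] at h2
  rw [h2] at h1
  exact (neg_eq_of_add_eq_zero_right h1.symm).symm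

/-- the vanishing criterion: `z = {u₁, u₂, u₃}` dies as soon as the auxiliary units exist -/
theorem sy_vanish {n : ℕ} (u₁ u₂ u₃ x y j t e : Aˣ)
    (h1 : (y : A) + j = 1) (h2 : (y : A) * u₁ + u₂ = 1) (h3 : u₂ * t = j ^ n)
    (h4 : (x : A) * y * e + ((j ^ (n + 1) * t⁻¹ : Aˣ) : A) = 1) (h5 : (t : A) = 1 + x * y)
    (h6 : u₃ = -e) : sy u₁ u₂ u₃ = 0 := by
  -- `{y, j, ·} = 0`
  have r1 : ∀ c, sy y j c = 0 := fun c => sy_steinberg₁₂ y j c h1
  -- `{u₁, u₂, ·} = {y, t, ·}`
  have r2 : ∀ c, sy u₁ u₂ c = sy y t c := by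
    intro c
    have a1 : sy (y * u₁) u₂ c = 0 := sy_steinberg₁₂ _ _ c (by rw [Units.val_mul]; exact h2)
    rw [sy_mul₁] at a1
    have a2 : u₂ = j ^ n * t⁻¹ := by rw [← h3, mul_inv_cancel_right]
    have a3 : sy y u₂ c = - sy y t c := by
      rw [a2, sy_mul₂, sy_pow₂, sy_inv₂, r1, smul_zero, zero_add]
    rw [a3] at a1
    exact (neg_add_eq_zero.1 a1).symm
  -- `{y, t, x y e} = 0`
  have r3 : sy y t (x * y * e) = 0 := by
    have a1 : sy y (j ^ (n + 1) * t⁻¹) (x * y * e) = 0 :=
      sy_steinberg₂₃ _ _ _ (by rw [add_comm]; exact h4)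
    rw [sy_mul₂, sy_pow₂, sy_inv₂, r1, smul_zero, zero_add, neg_eq_zero] at a1
    exact a1
  -- `{y, t, -xy} = 0`
  have r4 : sy y t (-(x * y)) = 0 :=
    sy_steinberg₂₃ _ _ _ (by rw [Units.val_neg, Units.val_mul, h5]; ring)
  have e1 : (-(x * y) : Aˣ) = -1 * (x * y) := by rw [neg_one_mul]
  have e2 : (-e : Aˣ) = -1 * e := by rw [neg_one_mul]
  have e3 : sy y t (-1) + sy y t (-1) = 0 := by
    rw [← sy_mul₃, neg_one_mul, neg_neg]
    have h2 := sy_mul₃ y t 1 1
    rw [mul_one] at h2
    have : sy y t 1 + 0 = sy y t 1 + sy y t 1 := by rw [add_zero]; exact h2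
    exact (add_left_cancel this).symm
  rw [e1, sy_mul₃] at r4
  rw [sy_mul₃] at r3
  rw [h6, r2, e2, sy_mul₃]
  have : sy y t e = - sy y t (x * y) := (neg_eq_of_add_eq_zero_right r3).symm
  rw [this]
  have h7 : sy y t (x * y) = - sy y t (-1) := (neg_eq_of_add_eq_zero_right r4).symm
  rw [h7, neg_neg, e3]

/-- the vanishing criterion on the level of chains -/
theorem exists_bar4_symb {n : ℕ} (u₁ u₂ u₃ x y j t e : Aˣ)
    (h1 : (y : A) + j = 1) (h2 : (y : A) * u₁ + u₂ = 1) (h3 : u₂ * t = j ^ n)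
    (h4 : (x : A) * y * e + ((j ^ (n + 1) * t⁻¹ : Aˣ) : A) = 1) (h5 : (t : A) = 1 + x * y)
    (h6 : u₃ = -e) : ∃ w, bar4 (St I A) w = symb u₁ u₂ u₃ :=
  (sy_eq_zero_iff _ _ _).1 (sy_vanish u₁ u₂ u₃ x y j t e h1 h2 h3 h4 h5 h6)

/-! ### Naturality -/

theorem map_colHom (ψ : A →+* B) (k : Fin 3) (s : St J A) :
    St.map ψ (colHom k s : St I A) = colHom k (St.map ψ s) := by
  have : (St.map ψ).comp (colHom k : St J A →* St I A) = (colHom k).comp (St.map ψ) :=
    St.hom_ext fun i j a _ => by simp [colHom]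
  exact DFunLike.congr_fun this s

theorem map_rowHom (ψ : A →+* B) (k : Fin 3) (s : St J A) :
    St.map ψ (rowHom k s : St I A) = rowHom k (St.map ψ s) := by
  have : (St.map ψ).comp (rowHom k : St J A →* St I A) = (rowHom k).comp (St.map ψ) :=
    St.hom_ext fun i j a _ => by simp [rowHom]
  exact DFunLike.congr_fun this s

theorem map_ahat (ψ : A →+* B) (a : Aˣ) :
    St.map ψ (ahat a : St I A) = ahat (Units.map (ψ : A →* B) a) := by
  simp only [ahat, blk, map_mul, map_colHom, map_h]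

theorem map_chat (ψ : A →+* B) (a : Aˣ) :
    St.map ψ (chat a : St I A) = chat (Units.map (ψ : A →* B) a) := by
  simp only [chat, blk, map_mul, map_rowHom, map_h]

theorem map_bhat (ψ : A →+* B) (a : Aˣ) :
    St.map ψ (bhat a : St I A) = bhat (Units.map (ψ : A →* B) a) := by
  simp only [bhat, sml, map_mul, map_inv, map_rowHom, map_h]

theorem mapC3_symb (ψ : A →+* B) (a b c : Aˣ) : mapC3 (St.map ψ) (symb a b c) =
    symb (Units.map (ψ : A →* B) a) (Units.map (ψ : A →* B) b) (Units.map (ψ : A →* B) c) := by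
  simp only [symb, mapC3_TT, map_ahat, map_bhat, map_chat]

end Vale.Agent.P178.H911
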