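import Vale.Agent.P178.H911.Symb
import Vale.Agent.P178.H873.GL

/-!
Images of the torus elements in the group of invertible matrices.
-/

namespace Vale.Agent.P178.H911

open H873 Matrix

variable {ι : Type*} [Fintype ι] [DecidableEq ι] {A : Type*} [CommRing A]

/-- the image of `g` is the diagonal matrix with entries `χ` -/
def Dg (g : St ι A) (χ : ι → Aˣ) : Prop :=
  ((St.toGL g : (Matrix ι ι A)ˣ) : Matrix ι ι A) = Matrix.diagonal fun k => (χ k : A)

theorem Dg.mul {g g' : St ι A} {χ χ' : ι → Aˣ} (h1 : Dg g χ) (h2 : Dg g' χ') :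
    Dg (g * g') (χ * χ') := by
  unfold Dg at *
  rw [map_mul, Units.val_mul, h1, h2, Matrix.diagonal_mul_diagonal]
  simp

theorem Dg.inv {g : St ι A} {χ : ι → Aˣ} (h1 : Dg g χ) : Dg g⁻¹ χ⁻¹ := by
  unfold Dg at *
  rw [map_inv]
  refine Units.inv_eq_of_mul_eq_one_right ?_
  rw [h1, Matrix.diagonal_mul_diagonal]
  simp

theorem dg_h {i j : ι} (hij : i ≠ j) (u : Aˣ) : Dg (h i j u : St ι A) (chr i j u) := by
  unfold Dg
  have := St.toGL_h (A := A) hij u
  change ((St.toGL (St.h i j u) : (Matrix ι ι A)ˣ) : Matrix ι ι A) = _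
  rw [this]
  ext a b
  by_cases hab : a = b
  · subst hab
    rw [Matrix.diagonal_apply_eq]
    by_cases ha : a = i
    · subst ha
      simp [chr_i, hij.symm]
    · by_cases hb : a = j
      · subst hb
        simp [chr_j hij, hij]
      · simp [chr_k ha hb, Ne.symm ha, Ne.symm hb]
  · rw [Matrix.diagonal_apply_ne _ hab]
    have h1 : ∀ (c : ι) (r : A), Matrix.single c c r a b = 0 := by
      intro c r
      rw [Matrix.single_apply]
      refine if_neg ?_
      rintro ⟨rfl, rfl⟩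
      exact hab rfl
    simp [h1, hab]

theorem Dg.congr {g : St ι A} {χ χ' : ι → Aˣ} (h1 : Dg g χ) (hχ : χ = χ') : Dg g χ' := hχ ▸ h1

theorem dg_ahat (a : Aˣ) : Dg (ahat a) (achr a) := by
  have H : ∀ p q : I, p ≠ q → Dg (h p q a : St I A) (chr p q a) := fun p q hpq =>
    dg_h hpq a
  have h0 := (((H (0,0,0) (2,0,0) (by decide)).mul (H (0,0,1) (2,0,1) (by decide))).mul
    ((H (0,1,0) (2,1,0) (by decide)).mul (H (0,1,1) (2,1,1) (by decide)))).mul
    ((H (0,2,0) (2,2,0) (by decide)).mul (H (0,2,1) (2,2,1) (by decide)))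
  have e : (ahat a : St I A) = h (0,0,0) (2,0,0) a * h (0,0,1) (2,0,1) a *
      (h (0,1,0) (2,1,0) a * h (0,1,1) (2,1,1) a) * (h (0,2,0) (2,2,0) a * h (0,2,1) (2,2,1) a) := by
    simp only [ahat, blk, colHom, map_mul, mapIdx_h, col]
  rw [e]
  refine h0.congr ?_
  funext ⟨i, k, m⟩
  fin_cases i <;> fin_cases k <;> fin_cases m <;> simp [chr, achr, wt]

theorem dg_chat (a : Aˣ) : Dg (chat a) (cchr a) := by
  have H : ∀ p q : I, p ≠ q → Dg (h p q a : St I A) (chr p q a) := fun p q hpq =>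
    dg_h hpq a
  have h0 := (((H (0,0,0) (0,2,0) (by decide)).mul (H (0,0,1) (0,2,1) (by decide))).mul
    ((H (1,0,0) (1,2,0) (by decide)).mul (H (1,0,1) (1,2,1) (by decide)))).mul
    ((H (2,0,0) (2,2,0) (by decide)).mul (H (2,0,1) (2,2,1) (by decide)))
  have e : (chat a : St I A) = h (0,0,0) (0,2,0) a * h (0,0,1) (0,2,1) a *
      (h (1,0,0) (1,2,0) a * h (1,0,1) (1,2,1) a) * (h (2,0,0) (2,2,0) a * h (2,0,1) (2,2,1) a) := by
    simp only [chat, blk, rowHom, map_mul, mapIdx_h, row]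
  rw [e]
  refine h0.congr ?_
  funext ⟨i, k, m⟩
  fin_cases i <;> fin_cases k <;> fin_cases m <;> simp [chr, cchr, wt]

theorem dg_bhat (a : Aˣ) : Dg (bhat a) (bchr a) := by
  have H : ∀ p q : I, p ≠ q → Dg (h p q a : St I A) (chr p q a) := fun p q hpq =>
    dg_h hpq a
  have h0 := (H (0,0,0) (0,1,0) (by decide)).mul (H (1,0,0) (1,1,0) (by decide)).inv
  have e : (bhat a : St I A) = h (0,0,0) (0,1,0) a * (h (1,0,0) (1,1,0) a)⁻¹ := by
    simp only [bhat, sml, rowHom, mapIdx_h, row]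
  rw [e]
  refine h0.congr ?_
  funext ⟨i, k, m⟩
  fin_cases i <;> fin_cases k <;> fin_cases m <;> simp [chr, bchr]

/-- `toGL (ahat a) = diag(achr a)` -/
theorem toGL_ahat (a : Aˣ) : ((St.toGL (ahat a) : (Matrix I I A)ˣ) : Matrix I I A) =
    Matrix.diagonal fun k => (achr a k : A) := dg_ahat a
/-- `toGL (bhat a) = diag(bchr a)` -/
theorem toGL_bhat (a : Aˣ) : ((St.toGL (bhat a) : (Matrix I I A)ˣ) : Matrix I I A) =
    Matrix.diagonal fun k => (bchr a k : A) := dg_bhat a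
/-- `toGL (chat a) = diag(cchr a)` -/
theorem toGL_chat (a : Aˣ) : ((St.toGL (chat a) : (Matrix I I A)ˣ) : Matrix I I A) =
    Matrix.diagonal fun k => (cchr a k : A) := dg_chat a

end Vale.Agent.P178.H911
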